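import Mathlib
import Vale.Agent.P196.Defs

/-!
# P192: definition of carvings, used in the statement
-/

namespace Vale.Agent.P192

/-- The sets of points of a `G`-set that are obtained from sets of at most `C` points by
successive unions in which all sets that occur have at most `C` boundary points (a carving of
width `C` of the Schreier graph). -/
inductive Carv {G X : Type*} [Group G] [MulAction G X] (S : Set G) (C : ℕ) : Set X → Prop
  | small (F : Set X) : F.Finite → F.ncard ≤ C → Carv S C F
  | union (F F' : Set X) : Carv S C F → Carv S C F' →
      (Vale.Agent.P196.bdry S (F ∪ F')).ncard ≤ C → Carv S C (F ∪ F')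

end Vale.Agent.P192
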