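import Mathlib

/-!
# P192: heavy paths in a growing family of partitions
-/

namespace Vale.Agent.P192

/-- Counting a set covered by classes. -/
theorem cover_card {X : Type*} (P : Set X) (f : X → Set X) (hself : ∀ z, z ∈ f z)
    (hfin : ∀ z, (f z).Finite) (B : Set X) (hB : B.Finite)
    (hcov : ∀ z ∈ P, ∃ b ∈ B, f b = f z) (m : ℕ) (hm : ∀ z ∈ P, (f z).ncard ≤ m) :
    P.ncard ≤ B.ncard * m := by
  classical
  let B' : Finset X := hB.toFinset.filter fun b => ∃ z ∈ P, f b = f z
  have hsub : P ⊆ ⋃ b ∈ B', f b := by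
    intro z hz
    obtain ⟨b, hb, hbz⟩ := hcov z hz
    refine Set.mem_biUnion (x := b) ?_ ?_
    · rw [Finset.mem_coe, Finset.mem_filter, Set.Finite.mem_toFinset]
      exact ⟨hb, z, hz, hbz⟩
    · rw [hbz]; exact hself z
  have hfinU : (⋃ b ∈ B', f b).Finite := B'.finite_toSet.biUnion fun b _ => hfin b
  refine (Set.ncard_le_ncard hsub hfinU).trans ?_
  have h2 : ∀ U : Finset X, U ⊆ B' → (⋃ b ∈ U, f b).ncard ≤ U.card * m := by
    intro U
    induction U using Finset.induction_on with
    | empty => intro _; simp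
    | insert a U ha ih' =>
      intro hU
      rw [Finset.set_biUnion_insert, Finset.card_insert_of_notMem ha]
      refine (Set.ncard_union_le _ _).trans ?_
      have h3 := ih' ((Finset.subset_insert a U).trans hU)
      have h4 : a ∈ B' := hU (Finset.mem_insert_self a U)
      simp only [B', Finset.mem_filter] at h4
      obtain ⟨_, z, hz, haz⟩ := h4
      have h5 := hm z hz
      rw [haz]
      nlinarith
  refine (h2 B' (Finset.Subset.refl _)).trans (Nat.mul_le_mul_right _ ?_)
  have h6 : B'.card ≤ hB.toFinset.card := Finset.card_filter_le _ _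
  rw [Set.ncard_eq_toFinset_card _ hB]
  exact h6

/-- A growing sequence of partitions (`K n y` is the class of `y` at level `n`) in which each
class either does not change in the next step or consists of at most `D` smaller classes. -/
theorem heavy {X : Type*} (K : ℕ → X → Set X) (D : ℕ)
    (hself : ∀ n y, y ∈ K n y) (heq : ∀ n y z, z ∈ K n y → K n z = K n y)
    (hmono : ∀ n y, K n y ⊆ K (n + 1) y) (hfin : ∀ n y, (K n y).Finite)
    (h0 : ∀ y, (K 0 y).ncard ≤ 1)
    (hD : ∀ n y, K (n + 1) y ≠ K n y →
      ∃ B : Set X, B.Finite ∧ B.ncard ≤ D ∧ ∀ z ∈ K (n + 1) y, ∃ b ∈ B, K n b = K n z)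
    (n : ℕ) : ∀ y : X, ∃ (r : ℕ) (z : X) (φ : ℕ → ℕ), z ∈ K n y ∧
      (∀ i < r, K (φ i) z ⊂ K (φ (i + 1)) z) ∧ K (φ r) z = K n z ∧ (K n y).ncard ≤ D ^ r := by
  classical
  induction n with
  | zero =>
    intro y
    exact ⟨0, y, fun _ => 0, hself 0 y, fun i hi => absurd hi (Nat.not_lt_zero i), rfl,
      (h0 y).trans (by simp)⟩
  | succ n ih =>
    intro y
    by_cases hy : K (n + 1) y = K n y
    · obtain ⟨r, z, φ, hz, h1, h2, h3⟩ := ih y
      have hz' : z ∈ K (n + 1) y := hy ▸ hz
      refine ⟨r, z, φ, hz', h1, ?_, by rw [hy]; exact h3⟩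
      rw [h2, heq n y z hz, heq (n + 1) y z hz', hy]
    · obtain ⟨B, hB, hBD, hcov⟩ := hD n y hy
      -- the largest class
      obtain ⟨z0, hz0, hmax⟩ := Set.exists_max_image (K (n + 1) y) (fun z => (K n z).ncard)
        (hfin _ _) ⟨y, hself _ _⟩
      have hcard : (K (n + 1) y).ncard ≤ D * (K n z0).ncard := by
        exact (cover_card (K (n + 1) y) (K n) (hself n) (hfin n) B hB hcov _ hmax).trans
          (Nat.mul_le_mul_right _ hBD)
      obtain ⟨r, z, φ, hz, h1, h2, h3⟩ := ih z0
      have hzy : z ∈ K (n + 1) y := by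
        have := hmono n z0 hz
        rwa [heq (n + 1) y z0 hz0] at this
      refine ⟨r + 1, z, fun i => if i ≤ r then φ i else n + 1, hzy, ?_, ?_, ?_⟩
      · intro i hi
        rcases Nat.lt_or_ge i r with h | h
        · simp only [if_pos h.le, if_pos (Nat.succ_le_of_lt h)]
          exact h1 i h
        · have hir : i = r := by omega
          subst hir
          simp only [le_refl, if_true, Nat.not_succ_le_self, if_false, h2]
          refine (hmono n z).ssubset_of_ne fun h => hy ?_
          have hyz : y ∈ K n z := by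
            rw [h, heq (n + 1) y z hzy]
            exact hself _ _
          rw [heq n z y hyz, h, heq (n + 1) y z hzy]
      · simp only [Nat.not_succ_le_self, if_false]
      · rw [pow_succ']
        exact hcard.trans (Nat.mul_le_mul_left _ h3)

end Vale.Agent.P192
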