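import Mathlib

/-!
# P192: definitions used in the statement
-/

namespace Vale.Agent.P192

/-- The activity of `g` at level `n`, for an action on the space of sequences in `A`: the words
`w` of length `n` such that `g` changes the tail (from position `n` on) of some sequence that
begins with `w`.  For an automorphism of the rooted tree of words these are the words `w` at which
the section of `g` is nontrivial. -/
def activity {G A : Type*} [SMul G (ℕ → A)] (g : G) (n : ℕ) : Set (Fin n → A) :=
  {w | ∃ ξ : ℕ → A, (∀ i : Fin n, ξ i = w i) ∧ ∃ k, n ≤ k ∧ (g • ξ) k ≠ ξ k}

end Vale.Agent.P192
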