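import Mathlib
import Vale.Agent.P192.Cover

/-!
# P192: no glue data between balls for periodic finitely presented groups
-/

open scoped Pointwise

namespace Vale.Agent.P192

open Vale.Agent.P196 Vale.Agent.P196.Glue

section

variable {G : Type*} [Group G]

/-- A periodic group acting on `Y × ℤ`, `Y` finite, commuting with the shift, has finite image. -/
theorem finite_image (hper : ∀ g : G, IsOfFinOrder g) {Y : Type*} [Finite Y]
    (f : G →* Equiv.Perm (Y × ℤ))
    (hf : ∀ (g : G) (y : Y) (m : ℤ), f g (y, m) = ((f g (y, 0)).1, (f g (y, 0)).2 + m)) :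
    (Set.range f).Finite := by
  classical
  -- an element acting trivially on `Y` acts trivially
  have htriv : ∀ g : G, (∀ y, (f g (y, 0)).1 = y) → f g = 1 := by
    intro g hg
    have hpow : ∀ (k : ℕ) (y : Y) (m : ℤ),
        f (g ^ k) (y, m) = (y, m + k * (f g (y, 0)).2) := by
      intro k
      induction k with
      | zero => intro y m; simp
      | succ k ih =>
        intro y m
        rw [pow_succ, map_mul, Equiv.Perm.mul_apply, hf g y m, hg y, ih]
        refine Prod.ext rfl ?_
        simp only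
        push_cast
        ring
    obtain ⟨k, hk, hgk⟩ := isOfFinOrder_iff_pow_eq_one.1 (hper g)
    have hzero : ∀ y, (f g (y, 0)).2 = 0 := by
      intro y
      have h1 := hpow k y 0
      rw [hgk, map_one, Equiv.Perm.one_apply] at h1
      have h2 := congrArg Prod.snd h1
      simp only [zero_add] at h2
      have hk' : (k : ℤ) ≠ 0 := by exact_mod_cast hk.ne'
      rcases mul_eq_zero.1 h2.symm with h | h
      · exact absurd h hk'
      · exact h
    apply Equiv.ext
    rintro ⟨y, m⟩
    rw [hf g y m, hg y, hzero y, zero_add]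
    rfl
  let c : G → (Y → Y) := fun g y => (f g (y, 0)).1
  have hc : ∀ g h : G, c g = c h → f g = f h := by
    intro g h hgh
    have h1 : f (h⁻¹ * g) = 1 := by
      apply htriv
      intro y
      rw [map_mul, Equiv.Perm.mul_apply]
      have h2 : f g (y, 0) = ((f h (y, 0)).1, (f g (y, 0)).2) :=
        Prod.ext (congrFun hgh y) rfl
      have h3 : f h⁻¹ ((f h (y, 0)).1, (f h (y, 0)).2) = (y, 0) := by
        rw [Prod.mk.eta, map_inv]
        exact (f h).symm_apply_apply (y, 0)
      have h4 : (f h⁻¹ ((f h (y, 0)).1, 0)).1 = y := by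
        have h5 := congrArg Prod.fst h3
        rw [hf] at h5
        exact h5
      rw [h2, hf]
      exact h4
    have h2 : f g = f h * f (h⁻¹ * g) := by rw [← map_mul, mul_inv_cancel_left]
    rw [h2, h1, mul_one]
  have hfin : (Set.range c).Finite := Set.toFinite _
  have hsub : Set.range f ⊆ (fun d : Y → Y => if h : ∃ g, c g = d then f h.choose else 1) ''
      (Set.range c) := by
    rintro _ ⟨g, rfl⟩
    refine ⟨c g, ⟨g, rfl⟩, ?_⟩
    have hex : ∃ g', c g' = c g := ⟨g, rfl⟩
    simp only [hex, dif_pos]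
    exact hc _ _ hex.choose_spec
  exact (hfin.image _).subset hsub

variable {X : Type*} [MulAction G X]

/-- There are no glue data between two balls. -/
theorem no_glue (hper : ∀ g : G, IsOfFinOrder g) {S : Set G}
    {n : ℕ} (π : FreeGroup (Fin n) →* G) (hπ : Function.Surjective π)
    (R : Set (FreeGroup (Fin n))) (hR : Subgroup.normalClosure R = π.ker)
    {E : Set G} (hE : ∀ i, π (FreeGroup.of i) ∈ E) {M C : ℕ} (hM : 2 ≤ M)
    (hRM : ∀ w ∈ R, w.toWord.length ≤ M)
    (hSM : ∀ s : G, s ∈ S ∨ s⁻¹ ∈ S → ∃ w : FreeGroup (Fin n), w.toWord.length ≤ M ∧ π w = s)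
    (x : X) (i j : ℕ) (hfin : (ball S x j).Finite)
    {p p' : Fin C → X} (D : Glue E M C (ball S x i) (ball S x j) p p')
    (hne : (bdry E (ball S x j)).Nonempty) : False := by
  classical
  set F := ball S x i with hF
  set F' := ball S x j with hF'
  obtain ⟨f, φ, hshift, hmid, hwd⟩ := exists_cover π hπ R hR hE hM hRM D
  have hYfin : Finite ↥(F' \ F) := (hfin.subset Set.sdiff_subset).to_subtype
  have hrange := finite_image hper f hshift
  -- a starting point
  obtain ⟨b, hb⟩ := hne
  rw [← D.range_p'] at hb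
  obtain ⟨c, rfl⟩ := hb
  have hc1 : p' c ∈ F' := by
    have : p' c ∈ bdry E F' := D.range_p' ▸ Set.mem_range_self c
    exact this.1
  have hc2 : p' c ∉ F := by
    have := D.far (Set.one_mem_pow D.one_mem) c
    rwa [one_smul] at this
  -- descending by one level
  have hdesc : ∀ (k : ℕ), k ≤ j → ∀ (y : ↥(F' \ F)), (y : X) ∈ ball S x k → ∀ m : ℤ,
      ∃ g : G, (f g (y, m)).2 < m := by
    intro k
    induction k with
    | zero =>
      intro _ y hy m
      exfalso
      obtain ⟨l, hl, _, hly⟩ := hy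
      have hl0 : l = [] := List.length_eq_zero_iff.1 (Nat.le_zero.1 hl)
      subst hl0
      rw [List.prod_nil, one_smul] at hly
      apply y.2.2
      rw [← hly]
      exact ⟨[], by simp, by simp, by simp⟩
    | succ k ih =>
      intro hk y hy m
      obtain ⟨l, hl, hlS, hly⟩ := hy
      cases l with
      | nil =>
        exfalso
        rw [List.prod_nil, one_smul] at hly
        apply y.2.2
        rw [← hly]
        exact ⟨[], by simp, by simp, by simp⟩
      | cons s l =>
        have hs : s⁻¹ ∈ S ∨ (s⁻¹)⁻¹ ∈ S := by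
          rcases hlS s List.mem_cons_self with h | h
          · exact Or.inr (by rwa [inv_inv])
          · exact Or.inl h
        have hy1 : s⁻¹ • (y : X) = l.prod • x := by
          rw [← hly, List.prod_cons, mul_smul, inv_smul_smul]
        have hy2 : s⁻¹ • (y : X) ∈ ball S x k := by
          rw [hy1]
          refine ⟨l, ?_, fun t ht => hlS t (List.mem_cons_of_mem _ ht), rfl⟩
          rw [List.length_cons] at hl
          omega
        obtain ⟨w, hw, hws⟩ := hSM s⁻¹ hs
        have hq := hwd w hw (y, m)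
        rw [hws] at hq
        simp only at hq
        by_cases hin : s⁻¹ • (y : X) ∈ F
        · refine ⟨s⁻¹, ?_⟩
          rw [hq.2, lev_in hin]
          linarith
        · have hin' : s⁻¹ • (y : X) ∈ F' := ball_mono S x (by omega) hy2
          rw [lev_mid hin hin', add_zero, hmid _ hin hin'] at hq
          obtain ⟨g', hg'⟩ := ih (by omega) ⟨s⁻¹ • (y : X), hin', hin⟩ hy2 m
          refine ⟨g' * s⁻¹, ?_⟩
          rw [map_mul, Equiv.Perm.mul_apply]
          have e : f s⁻¹ (y, m) = (⟨s⁻¹ • (y : X), hin', hin⟩, m) :=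
            Prod.ext (Subtype.ext hq.1) hq.2
          rw [e]
          exact hg'
  have hdown : ∀ m : ℕ, ∃ g : G, (f g (⟨p' c, hc1, hc2⟩, 0)).2 ≤ -(m : ℤ) := by
    intro m
    induction m with
    | zero => exact ⟨1, by simp⟩
    | succ m ih =>
      obtain ⟨g, hg⟩ := ih
      have hyj : (((f g (⟨p' c, hc1, hc2⟩, 0)).1 : ↥(F' \ F)) : X) ∈ ball S x j :=
        (f g (⟨p' c, hc1, hc2⟩, 0)).1.2.1
      obtain ⟨g', hg'⟩ := hdesc j le_rfl (f g (⟨p' c, hc1, hc2⟩, 0)).1 hyj
        (f g (⟨p' c, hc1, hc2⟩, 0)).2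
      refine ⟨g' * g, ?_⟩
      rw [map_mul, Equiv.Perm.mul_apply]
      rw [Prod.mk.eta] at hg'
      push_cast
      linarith
  -- the set of levels is finite
  have hlev : ((fun u : Equiv.Perm (↥(F' \ F) × ℤ) => (u (⟨p' c, hc1, hc2⟩, 0)).2) ''
      (Set.range f)).Finite := hrange.image _
  obtain ⟨b, hb⟩ := hlev.bddBelow
  obtain ⟨g, hg⟩ := hdown (b.natAbs + 1)
  have h1 : b ≤ (f g (⟨p' c, hc1, hc2⟩, 0)).2 := hb ⟨f g, ⟨g, rfl⟩, rfl⟩
  have h2 : -(b.natAbs : ℤ) ≤ b := by
    rw [← Int.abs_eq_natAbs]
    exact neg_abs_le b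
  push_cast at hg
  push_cast at h2
  linarith

end

end Vale.Agent.P192
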