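import Mathlib
import Vale.Agent.P192.Growth

/-!
# P192: finitely presented periodic groups of piecewise `H`-permutations are finite
-/

open scoped Pointwise

namespace Vale.Agent.P192

open Vale.Agent.P196 Vale.Agent.P196.Glue

universe u v w

/-- A finitely generated group acting with uniformly bounded orbits acts through a finite
quotient. -/
theorem finite_of_bounded {G : Type u} [Group G] {n : ℕ} (π : FreeGroup (Fin n) →* G)
    (hπ : Function.Surjective π) {X : Type v} (ρ : G →* Equiv.Perm X) (B : ℕ)
    (h : ∀ x : X, (Set.range fun g => ρ g x).Finite ∧ (Set.range fun g => ρ g x).ncard ≤ B) :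
    (Set.range ρ).Finite := by
  classical
  -- finitely many homomorphisms to `Perm (Fin B)`
  have hfinHom : Finite (G →* Equiv.Perm (Fin B)) := by
    have hinj : Function.Injective
        (fun f : G →* Equiv.Perm (Fin B) => fun i : Fin n => f (π (FreeGroup.of i))) := by
      intro f f' hff
      have h1 : f.comp π = f'.comp π := by
        ext1 i
        exact congrFun hff i
      ext1 g
      obtain ⟨w, rfl⟩ := hπ g
      exact DFunLike.congr_fun h1 w
    exact Finite.of_injective _ hinj
  let K : Subgroup G := ⨅ f : G →* Equiv.Perm (Fin B), f.ker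
  have hK : K.FiniteIndex := by
    apply Subgroup.finiteIndex_iInf
    intro f
    exact Subgroup.finiteIndex_ker f
  have hKle : K ≤ ρ.ker := by
    intro k hk
    rw [MonoidHom.mem_ker]
    apply Equiv.ext
    intro x
    let _ : MulAction G X := MulAction.compHom X ρ
    have horb : MulAction.orbit G x = Set.range fun g => ρ g x := rfl
    have hfin : Finite ↥(MulAction.orbit G x) := by rw [horb]; exact (h x).1.to_subtype
    have hcard : Nat.card ↥(MulAction.orbit G x) ≤ B := by
      rw [Nat.card_coe_set_eq, horb]; exact (h x).2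
    let _ : Fintype ↥(MulAction.orbit G x) := Fintype.ofFinite _
    have hcard' : Fintype.card ↥(MulAction.orbit G x) ≤ Fintype.card (Fin B) := by
      rw [Fintype.card_fin, ← Nat.card_eq_fintype_card]; exact hcard
    obtain ⟨ι⟩ := Function.Embedding.nonempty_of_card_le hcard'
    let f : G →* Equiv.Perm (Fin B) :=
      (Equiv.Perm.viaEmbeddingHom ι).comp (MulAction.toPermHom G ↥(MulAction.orbit G x))
    have hkf : f k = 1 := by
      have : k ∈ f.ker := (Subgroup.mem_iInf.1 hk) f
      exact this
    have h1 : MulAction.toPermHom G ↥(MulAction.orbit G x) k = 1 :=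
      Equiv.Perm.viaEmbeddingHom_injective ι (by rw [map_one]; exact hkf)
    have h2 := Equiv.ext_iff.1 h1 ⟨x, MulAction.mem_orbit_self x⟩
    exact congrArg Subtype.val h2
  have hker : ρ.ker.FiniteIndex := Subgroup.finiteIndex_of_le hKle
  have hq : Finite (G ⧸ ρ.ker) := Subgroup.finite_quotient_of_finiteIndex
  have hr : Finite ρ.range := Finite.of_equiv _ (QuotientGroup.quotientKerEquivRange ρ).toEquiv
  have : (Set.range ρ) = (ρ.range : Set (Equiv.Perm X)) := (MonoidHom.coe_range ρ).symm
  rw [this]
  exact Set.toFinite _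

/-- Every action of a finitely presented periodic group by piecewise `H`-transformations,
`H` virtually cyclic, factors through a finite group. -/
theorem piecewise_finite {G : Type u} {X : Type v} {H : Type w} [Group G] [Group H]
    [Group.IsFinitelyPresented G] (hper : ∀ g : G, IsOfFinOrder g)
    (ρ : G →* Equiv.Perm X) (σ : H →* Equiv.Perm X) (t : H)
    (ht : (Subgroup.zpowers t).FiniteIndex)
    (hρ : ∀ g : G, ∃ K : Set H, K.Finite ∧ ∀ x : X, ∃ h ∈ K, ρ g x = σ h x) :
    (Set.range ρ).Finite := by
  classical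
  let _ : MulAction G X := MulAction.compHom X ρ
  have hact : ∀ (g : G) (x : X), g • x = ρ g x := fun _ _ => rfl
  obtain ⟨n, π, hπ, _⟩ := (inferInstance : Group.IsFinitelyPresented G).out
  let S : Set G := Set.range fun i => π (FreeGroup.of i)
  have hSf : S.Finite := Set.finite_range _
  have hS : Subgroup.closure S = ⊤ := by
    have h1 : S = π '' (Set.range FreeGroup.of) := by
      rw [← Set.range_comp]
      rfl
    rw [h1, ← MonoidHom.map_closure, FreeGroup.closure_range_of, ← MonoidHom.range_eq_map,
      MonoidHom.range_eq_top.2 hπ]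
  choose K hKf hK using hρ
  let K' : Set H := (⋃ s ∈ S, K s) ∪ (⋃ s ∈ S, K s⁻¹)
  have hK' : K'.Finite := (hSf.biUnion fun s _ => hKf s).union (hSf.biUnion fun s _ => hKf s⁻¹)
  obtain ⟨T, m, hT, hw⟩ := virt_cyclic_words t ht K' hK'
  -- words
  have hword : ∀ (x : X) (l : List G), (∀ s ∈ l, s ∈ S ∨ s⁻¹ ∈ S) →
      ∃ l' : List H, l'.length = l.length ∧ (∀ k ∈ l', k ∈ K') ∧ l.prod • x = σ l'.prod x := by
    intro x l
    induction l with
    | nil => intro _; exact ⟨[], rfl, by simp, by simp⟩
    | cons s l ih =>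
      intro hl
      obtain ⟨l', h1, h2, h3⟩ := ih fun s hs => hl s (List.mem_cons_of_mem _ hs)
      obtain ⟨k, hk, hk'⟩ := hK s (l.prod • x)
      have hkK : k ∈ K' := by
        rcases hl s List.mem_cons_self with h | h
        · exact Or.inl (Set.mem_biUnion h hk)
        · refine Or.inr (Set.mem_biUnion h ?_)
          rwa [inv_inv]
      refine ⟨k :: l', by simp [h1], ?_, ?_⟩
      · intro k' hk'
        rcases List.mem_cons.1 hk' with rfl | hk'
        · exact hkK
        · exact h2 k' hk'
      · rw [List.prod_cons, mul_smul, hact s, hk', List.prod_cons, map_mul, h3]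
        rfl
  have hball : ∀ (x : X) (n : ℕ), (ball S x n).ncard ≤ T.ncard * (2 * (m * n) + 1) := by
    intro x n
    have hsub : ball S x n ⊆ Set.image2 (fun (τ : H) (z : ℤ) => σ (τ * t ^ z) x) T
        (Set.Icc (-(m * n : ℤ)) (m * n)) := by
      rintro y ⟨l, hl, hl', rfl⟩
      obtain ⟨l', h1, h2, h3⟩ := hword x l hl'
      obtain ⟨z, τ, hτ, hz, hp⟩ := hw l' h2
      refine ⟨τ, hτ, z, ?_, ?_⟩
      · rw [Set.mem_Icc, ← abs_le]
        refine hz.trans ?_
        rw [h1]
        have : (l.length : ℤ) ≤ n := by exact_mod_cast hl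
        exact mul_le_mul_of_nonneg_left this (by positivity)
      · rw [h3, hp]
    have hfin2 : (Set.Icc (-(m * n : ℤ)) (m * n)).Finite := Set.finite_Icc _ _
    refine (Set.ncard_le_ncard hsub (hT.image2 _ hfin2)).trans ?_
    rw [← Set.image_prod]
    refine (Set.ncard_image_le (hT.prod hfin2)).trans ?_
    rw [Set.ncard_prod]
    refine Nat.mul_le_mul_left _ ?_
    rw [← Nat.card_coe_set_eq, Nat.card_eq_fintype_card]
    simp only [Fintype.card_ofFinset, Int.card_Icc]
    have : ((m * n : ℤ) + 1 - -(m * n : ℤ)) = ((2 * (m * n) + 1 : ℕ) : ℤ) := by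
      push_cast
      ring
    rw [this, Int.toNat_natCast]
  obtain ⟨B, hB⟩ := linear_bounded.{u, v} hper S hSf hS (T.ncard * (2 * m + 1))
  refine finite_of_bounded π hπ ρ B fun x => ?_
  have h1 := hB X x (fun n => (hball x n).trans (by
    rw [mul_assoc]
    apply Nat.mul_le_mul_left
    nlinarith))
  exact h1

/-- Finitely presented periodic groups in topological full groups. -/
theorem full_group_finite {G : Type u} {X : Type v} [Group G] [Group.IsFinitelyPresented G]
    (hper : ∀ g : G, IsOfFinOrder g) [TopologicalSpace X] (φ : X ≃ₜ X) (ρ : G →* (X ≃ₜ X))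
    (hρ : ∀ g, ρ g ∈ topFullGroup φ) : (Set.range ρ).Finite := by
  let toPerm : (X ≃ₜ X) →* Equiv.Perm X :=
    { toFun := fun f => f.toEquiv
      map_one' := rfl
      map_mul' := fun _ _ => rfl }
  let σ : Multiplicative ℤ →* Equiv.Perm X := toPerm.comp (zpowersHom (X ≃ₜ X) φ)
  have h := piecewise_finite hper (toPerm.comp ρ) σ (Multiplicative.ofAdd 1) (by
    have : Subgroup.zpowers (Multiplicative.ofAdd (1 : ℤ)) = ⊤ := by
      rw [Subgroup.eq_top_iff']
      intro x
      exact Subgroup.mem_zpowers_iff.2 ⟨Multiplicative.toAdd x, by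
        rw [← ofAdd_zsmul]
        simp⟩
    rw [this]
    infer_instance) (by
    intro g
    obtain ⟨k, U, n, _, _, hU, hg⟩ := hρ g
    refine ⟨Set.range fun i => Multiplicative.ofAdd (n i), Set.finite_range _, fun x => ?_⟩
    have hx : x ∈ ⋃ i, U i := hU ▸ Set.mem_univ x
    obtain ⟨i, hi⟩ := Set.mem_iUnion.1 hx
    exact ⟨_, ⟨i, rfl⟩, hg i x hi⟩)
  have hinj : Function.Injective toPerm := by
    intro f f' hff
    ext x
    exact Equiv.ext_iff.1 hff x
  have h2 : (Set.range fun g => toPerm (ρ g)).Finite := h
  have h3 : (Set.range fun g => toPerm (ρ g)) = toPerm '' (Set.range ρ) := by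
    rw [← Set.range_comp]
    rfl
  rw [h3] at h2
  exact Set.Finite.of_finite_image h2 hinj.injOn

end Vale.Agent.P192
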