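import Mathlib
import Vale.Agent.P192.Piecewise

/-!
# P192: exhaustions by finite sets with bounded boundaries
-/

open scoped Pointwise

namespace Vale.Agent.P192

open Vale.Agent.P196 Vale.Agent.P196.Glue

section

variable {G X : Type*} [Group G] [MulAction G X]

/-- The points of `F` that can be reached from `x` by steps of `S` and inverses inside `F`. -/
inductive Reach (S : Set G) (F : Set X) (x : X) : X → Prop
  | base : x ∈ F → Reach S F x x
  | step (y : X) (s : G) : Reach S F x y → (s ∈ S ∨ s⁻¹ ∈ S) → s • y ∈ F → Reach S F x (s • y)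

theorem Reach.mem {S : Set G} {F : Set X} {x y : X} (h : Reach S F x y) : y ∈ F := by
  cases h with
  | base h => exact h
  | step _ _ _ _ h => exact h

theorem Reach.mono {S : Set G} {F F' : Set X} (hF : F ⊆ F') {x y : X} (h : Reach S F x y) :
    Reach S F' x y := by
  induction h with
  | base h => exact .base (hF h)
  | step y s _ hs h ih => exact .step y s ih hs (hF h)

/-- the connected component of `x` in `F` -/
def comp (S : Set G) (F : Set X) (x : X) : Set X := {y | Reach S F x y}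

theorem comp_subset (S : Set G) (F : Set X) (x : X) : comp S F x ⊆ F := fun _ h => h.mem

theorem comp_mono (S : Set G) {F F' : Set X} (hF : F ⊆ F') (x : X) :
    comp S F x ⊆ comp S F' x := fun _ h => h.mono hF

/-- connected components inside themselves -/
theorem comp_conn {S : Set G} {F : Set X} {x y : X} (h : Reach S F x y) :
    Reach S (comp S F x) x y := by
  induction h with
  | base h => exact .base (Reach.base h)
  | step y s hy hs h ih => exact .step y s ih hs (Reach.step y s hy hs h)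

theorem bdry_comp (S : Set G) (F : Set X) (x : X) : bdry S (comp S F x) ⊆ bdry S F := by
  rintro y ⟨hy, s, hs, hs'⟩
  refine ⟨hy.mem, s, hs, ?_⟩
  rcases hs' with h | h
  · exact Or.inl fun hF => h (Reach.step y s hy (Or.inl hs) hF)
  · exact Or.inr fun hF => h (Reach.step y s⁻¹ hy (Or.inr (by rwa [inv_inv])) hF)

/-- No glue data between two finite sets such that the larger one is connected and the smaller
one contains its base point. -/
theorem no_glue' (hper : ∀ g : G, IsOfFinOrder g) {S : Set G}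
    {n : ℕ} (π : FreeGroup (Fin n) →* G) (hπ : Function.Surjective π)
    (R : Set (FreeGroup (Fin n))) (hR : Subgroup.normalClosure R = π.ker)
    {E : Set G} (hE : ∀ i, π (FreeGroup.of i) ∈ E) {M C : ℕ} (hM : 2 ≤ M)
    (hRM : ∀ w ∈ R, w.toWord.length ≤ M)
    (hSM : ∀ s : G, s ∈ S ∨ s⁻¹ ∈ S → ∃ w : FreeGroup (Fin n), w.toWord.length ≤ M ∧ π w = s)
    {F F' : Set X} (x : X) (hx : x ∈ F) (hconn : ∀ y ∈ F', Reach S F' x y) (hfin : F'.Finite)
    {p p' : Fin C → X} (D : Glue E M C F F' p p')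
    (hne : (bdry E F').Nonempty) : False := by
  classical
  obtain ⟨f, φ, hshift, hmid, hwd⟩ := exists_cover π hπ R hR hE hM hRM D
  have hYfin : Finite ↥(F' \ F) := (hfin.subset Set.sdiff_subset).to_subtype
  have hrange := finite_image hper f hshift
  -- a starting point
  obtain ⟨b, hb⟩ := hne
  rw [← D.range_p'] at hb
  obtain ⟨c, rfl⟩ := hb
  have hc1 : p' c ∈ F' := by
    have : p' c ∈ bdry E F' := D.range_p' ▸ Set.mem_range_self c
    exact this.1
  have hc2 : p' c ∉ F := by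
    have := D.far (Set.one_mem_pow D.one_mem) c
    rwa [one_smul] at this
  -- descending by one level
  have hdesc : ∀ y : X, Reach S F' x y → ∀ (h1 : y ∈ F') (h2 : y ∉ F) (m : ℤ),
      ∃ g : G, (f g ((⟨y, h1, h2⟩ : ↥(F' \ F)), m)).2 < m := by
    intro y hy
    induction hy with
    | base _ => intro _ h2; exact absurd hx h2
    | step y s hy hs hsy ih =>
      intro h1 h2 m
      have hs' : s⁻¹ ∈ S ∨ (s⁻¹)⁻¹ ∈ S := by
        rcases hs with h | h
        · exact Or.inr (by rwa [inv_inv])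
        · exact Or.inl h
      obtain ⟨w, hw, hws⟩ := hSM s⁻¹ hs'
      have hq := hwd w hw ((⟨s • y, h1, h2⟩ : ↥(F' \ F)), m)
      rw [hws] at hq
      simp only [inv_smul_smul] at hq
      by_cases hin : y ∈ F
      · refine ⟨s⁻¹, ?_⟩
        rw [hq.2, lev_in hin]
        linarith
      · have hin' : y ∈ F' := hy.mem
        rw [lev_mid hin hin', add_zero, hmid _ hin hin'] at hq
        obtain ⟨g', hg'⟩ := ih hin' hin m
        refine ⟨g' * s⁻¹, ?_⟩
        rw [map_mul, Equiv.Perm.mul_apply]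
        have e : f s⁻¹ ((⟨s • y, h1, h2⟩ : ↥(F' \ F)), m) = (⟨y, hin', hin⟩, m) :=
          Prod.ext (Subtype.ext hq.1) hq.2
        rw [e]
        exact hg'
  have hdown : ∀ m : ℕ, ∃ g : G, (f g (⟨p' c, hc1, hc2⟩, 0)).2 ≤ -(m : ℤ) := by
    intro m
    induction m with
    | zero => exact ⟨1, by simp⟩
    | succ m ih =>
      obtain ⟨g, hg⟩ := ih
      obtain ⟨g', hg'⟩ := hdesc _ (hconn _ (f g (⟨p' c, hc1, hc2⟩, 0)).1.2.1)
        (f g (⟨p' c, hc1, hc2⟩, 0)).1.2.1 (f g (⟨p' c, hc1, hc2⟩, 0)).1.2.2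
        (f g (⟨p' c, hc1, hc2⟩, 0)).2
      refine ⟨g' * g, ?_⟩
      rw [map_mul, Equiv.Perm.mul_apply]
      have e : ((⟨((f g (⟨p' c, hc1, hc2⟩, 0)).1 : X), (f g (⟨p' c, hc1, hc2⟩, 0)).1.2.1,
          (f g (⟨p' c, hc1, hc2⟩, 0)).1.2.2⟩ : ↥(F' \ F)), (f g (⟨p' c, hc1, hc2⟩, 0)).2) =
          f g (⟨p' c, hc1, hc2⟩, 0) := rfl
      rw [e] at hg'
      push_cast
      linarith
  -- the set of levels is finite
  have hlev : ((fun u : Equiv.Perm (↥(F' \ F) × ℤ) => (u (⟨p' c, hc1, hc2⟩, 0)).2) ''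
      (Set.range f)).Finite := hrange.image _
  obtain ⟨b, hb⟩ := hlev.bddBelow
  obtain ⟨g, hg⟩ := hdown (b.natAbs + 1)
  have h1 : b ≤ (f g (⟨p' c, hc1, hc2⟩, 0)).2 := hb ⟨f g, ⟨g, rfl⟩, rfl⟩
  have h2 : -(b.natAbs : ℤ) ≤ b := by
    rw [← Int.abs_eq_natAbs]
    exact neg_abs_le b
  push_cast at hg
  push_cast at h2
  linarith

/-- **Thin exhaustions.**  A transitive `G`-set, `G` finitely presented and periodic, which is an
increasing union of finite sets with boundaries of bounded size, is finite. -/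
theorem thin_finite [MulAction.IsPretransitive G X] [Group.IsFinitelyPresented G]
    (hper : ∀ g : G, IsOfFinOrder g) (S : Set G) (hSf : S.Finite)
    (hS : Subgroup.closure S = ⊤) (C : ℕ) (F0 : ℕ → Set X)
    (hmono0 : Monotone F0) (hU0 : ⋃ n, F0 n = Set.univ) (hfin0 : ∀ n, (F0 n).Finite)
    (hb0 : ∀ n, (bdry S (F0 n)).ncard ≤ C) : Finite X := by
  classical
  by_contra hXf
  rw [not_finite_iff_infinite] at hXf
  obtain ⟨x⟩ : Nonempty X := inferInstance
  -- pass to components of `x`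
  let F : ℕ → Set X := fun n => comp S (F0 n) x
  have hmono : Monotone F := fun a b hab => comp_mono S (hmono0 hab) x
  have hfin : ∀ n, (F n).Finite := fun n => (hfin0 n).subset (comp_subset S _ x)
  have hU : ⋃ n, F n = Set.univ := by
    apply Set.eq_univ_of_forall
    intro y
    obtain ⟨g, rfl⟩ := MulAction.exists_smul_eq G x y
    have hg : g ∈ Submonoid.closure (S ∪ S⁻¹) := by
      rw [← Subgroup.closure_toSubmonoid, hS]
      exact Submonoid.mem_top g
    obtain ⟨l, hl, hl'⟩ := Submonoid.exists_list_of_mem_closure hg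
    rw [← hl']
    clear hl' hg
    induction l with
    | nil =>
      rw [List.prod_nil, one_smul]
      have hx : x ∈ ⋃ n, F0 n := hU0 ▸ Set.mem_univ x
      obtain ⟨k, hk⟩ := Set.mem_iUnion.1 hx
      exact Set.mem_iUnion.2 ⟨k, Reach.base hk⟩
    | cons s l ih =>
      obtain ⟨k, hk⟩ := Set.mem_iUnion.1 (ih fun t ht => hl t (List.mem_cons_of_mem _ ht))
      have hx : (s :: l).prod • x ∈ ⋃ n, F0 n := hU0 ▸ Set.mem_univ _
      obtain ⟨k', hk'⟩ := Set.mem_iUnion.1 hx
      refine Set.mem_iUnion.2 ⟨max k k', ?_⟩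
      have h1 : Reach S (F0 (max k k')) x (l.prod • x) := hk.mono (hmono0 (le_max_left _ _))
      have h2 : (s :: l).prod • x = s • l.prod • x := by rw [List.prod_cons, mul_smul]
      rw [h2] at hk' ⊢
      refine Reach.step _ s h1 ?_ (hmono0 (le_max_right k k') hk')
      rcases hl s List.mem_cons_self with h | h
      · exact Or.inl h
      · exact Or.inr (by simpa using h)
  have hne : ∀ n, F n ≠ Set.univ := by
    intro n h
    have := hfin n
    rw [h] at this
    exact Set.infinite_univ this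
  have hb : ∀ n, (bdry S (F n)).Finite ∧ (bdry S (F n)).ncard ≤ C := by
    intro n
    have h0 : (bdry S (F0 n)).Finite := (hfin0 n).subset (bdry_subset _ _)
    exact ⟨(hfin n).subset (bdry_subset _ _),
      (Set.ncard_le_ncard (bdry_comp S (F0 n) x) h0).trans (hb0 n)⟩
  have hconn : ∀ n, ∀ y ∈ F n, Reach S (F n) x y := fun n y hy => comp_conn hy
  obtain ⟨n, π, hπ, R, hRfin, hR⟩ := (inferInstance : Group.IsFinitelyPresented G).out
  -- the symmetric generating set
  let E : Set G := {1} ∪ (Set.range fun i => π (FreeGroup.of i)) ∪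
    (Set.range fun i => (π (FreeGroup.of i))⁻¹)
  have hEfin : E.Finite :=
    ((Set.finite_singleton 1).union (Set.finite_range _)).union (Set.finite_range _)
  have hE1 : (1 : G) ∈ E := Or.inl (Or.inl rfl)
  have hEa : ∀ i, π (FreeGroup.of i) ∈ E := fun i => Or.inl (Or.inr ⟨i, rfl⟩)
  have hEa' : ∀ i, (π (FreeGroup.of i))⁻¹ ∈ E := fun i => Or.inr ⟨i, rfl⟩
  have hEinv : ∀ e ∈ E, e⁻¹ ∈ E := by
    rintro e ((he | ⟨i, rfl⟩) | ⟨i, rfl⟩)
    · rw [Set.mem_singleton_iff.1 he, inv_one]; exact hE1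
    · exact hEa' i
    · simp only [inv_inv]; exact hEa i
  -- the length bound
  choose wd hwd using hπ
  obtain ⟨M, hM2, hRM, hSM⟩ : ∃ M : ℕ, 2 ≤ M ∧ (∀ w ∈ R, w.toWord.length ≤ M) ∧
      ∀ s : G, s ∈ S ∨ s⁻¹ ∈ S → ∃ w : FreeGroup (Fin n), w.toWord.length ≤ M ∧ π w = s := by
    obtain ⟨M, hM⟩ := (hRfin.image fun w => w.toWord.length).bddAbove
    have hSS : (S ∪ S⁻¹).Finite := hSf.union hSf.inv
    obtain ⟨M', hM'⟩ := (hSS.image fun s => (wd s).toWord.length).bddAbove
    refine ⟨max 2 (max M M'), le_max_left _ _, fun w hw => ?_, fun s hs => ?_⟩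
    · exact (hM ⟨w, hw, rfl⟩).trans ((le_max_left _ _).trans (le_max_right _ _))
    · refine ⟨wd s, ?_, hwd s⟩
      exact (hM' ⟨s, hs.elim Or.inl fun h => Or.inr (by simpa using h), rfl⟩).trans
        ((le_max_right _ _).trans (le_max_right _ _))
  have hπ : Function.Surjective π := fun g => ⟨wd g, hwd g⟩
  obtain ⟨C', hC'⟩ := exists_bdry_bound (X := X) S hS E hEfin C
  have hbE : ∀ n, (bdry E (F n)).Finite ∧ (bdry E (F n)).ncard ≤ C' :=
    fun n => hC' _ (hb n).1 (hb n).2
  -- finiteness of powers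
  have hEpow : ∀ k : ℕ, (E ^ k).Finite := by
    intro k
    induction k with
    | zero => simp
    | succ k ih => rw [pow_succ]; exact ih.mul hEfin
  -- thickening
  have hthick : ∀ n, ∃ m, n ≤ m ∧ ∀ g ∈ E ^ (M + 1), ∀ x ∈ F n, g • x ∈ F m := by
    intro n
    obtain ⟨m, hm, hA⟩ := finite_subset_of_mono hmono hU
      ((hEpow (M + 1)).smul (hfin n)) n
    exact ⟨m, hm, fun g hg x hx => hA (Set.smul_mem_smul hg hx)⟩
  choose m hm1 hm2 using hthick
  -- a start containing `x`
  obtain ⟨n0, hn0⟩ : ∃ n0, x ∈ F n0 := by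
    have hx : x ∈ ⋃ n, F n := hU ▸ Set.mem_univ x
    exact Set.mem_iUnion.1 hx
  let φ : ℕ → ℕ := fun k => Nat.rec n0 (fun _ r => m r) k
  have hφs : ∀ k, φ (k + 1) = m (φ k) := fun k => rfl
  have hφmono : Monotone φ := monotone_nat_of_le_succ fun k => by rw [hφs]; exact hm1 _
  have hφx : ∀ k, x ∈ F (φ k) := fun k => hmono (hφmono (Nat.zero_le k)) hn0
  have hφthick : ∀ i j, i < j → ∀ g ∈ E ^ (M + 1), ∀ x ∈ F (φ i), g • x ∈ F (φ j) := by
    intro i j hij g hg x hx
    have h1 : g • x ∈ F (φ (i + 1)) := by rw [hφs]; exact hm2 _ g hg x hx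
    exact hmono (hφmono hij) h1
  -- boundaries are nonempty
  have hbne : ∀ k, (bdry E (F (φ k))).Nonempty := fun k =>
    bdry_nonempty π hπ hEa hEa' ⟨x, hφx k⟩ (hne _)
  choose p hp using fun k => exists_param (hbE (φ k)).1 (hbE (φ k)).2 (hbne k)
  -- the codes
  have : Finite ↥(E ^ M) := (hEpow M).to_subtype
  have hC'0 : 0 < C' := by
    have h1 := (Set.ncard_pos (hbE (φ 0)).1).2 (hbne 0)
    exact h1.trans_le (hbE (φ 0)).2
  have hne1 : Nonempty (↥(E ^ M) × Fin C') :=
    ⟨(⟨1, Set.one_mem_pow hE1⟩, ⟨0, hC'0⟩)⟩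
  obtain ⟨i, j, hij, hcode⟩ : ∃ i j, i < j ∧
      code (fun a : ↥(E ^ M) × Fin C' => (a.1 : G) • p i a.2) (F (φ i)) =
      code (fun a : ↥(E ^ M) × Fin C' => (a.1 : G) • p j a.2) (F (φ j)) := by
    obtain ⟨i, j, hij, h⟩ := Finite.exists_ne_map_eq_of_infinite
      (fun k => code (fun a : ↥(E ^ M) × Fin C' => (a.1 : G) • p k a.2) (F (φ k)))
    rcases lt_or_gt_of_ne hij with h' | h'
    · exact ⟨i, j, h', h⟩
    · exact ⟨j, i, h', h.symm⟩
  have D : Glue E M C' (F (φ i)) (F (φ j)) (p i) (p j) :=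
    glue_of_code hE1 hEinv (hp i) (hp j) (hφthick i j hij) hcode
  exact no_glue' hper π hπ R hR hEa hM2 hRM hSM x (hφx i) (hconn _) (hfin _) D (hbne j)

end

end Vale.Agent.P192
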