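import Mathlib
import Vale.Agent.P192.Exhaust
import Vale.Agent.P192.Defs

/-!
# P192: orbits exhausted by finite sets with bounded boundary; actions of bounded type on
spaces of sequences
-/

open scoped Pointwise

namespace Vale.Agent.P192

open Vale.Agent.P196 Vale.Agent.P196.Glue

section

variable {G X : Type*} [Group G] [MulAction G X]

theorem image_bdry (S : Set G) (x : X) (F' : Set ↥(MulAction.orbit G x)) :
    Subtype.val '' (bdry S F') = bdry S (Subtype.val '' F' : Set X) := by
  ext y
  constructor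
  · rintro ⟨z, ⟨hz, s, hs, hs'⟩, rfl⟩
    refine ⟨⟨z, hz, rfl⟩, s, hs, ?_⟩
    rcases hs' with h | h
    · left
      rintro ⟨z', hz', h'⟩
      exact h (by rwa [show s • z = z' from Subtype.ext h'.symm])
    · right
      rintro ⟨z', hz', h'⟩
      exact h (by rwa [show s⁻¹ • z = z' from Subtype.ext h'.symm])
  · rintro ⟨⟨z, hz, rfl⟩, s, hs, hs'⟩
    refine ⟨z, ⟨hz, s, hs, ?_⟩, rfl⟩
    rcases hs' with h | h
    · exact Or.inl fun h' => h ⟨_, h', rfl⟩
    · exact Or.inr fun h' => h ⟨_, h', rfl⟩

/-- Orbit form of `thin_finite`. -/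
theorem thin_orbit [Group.IsFinitelyPresented G]
    (hper : ∀ g : G, IsOfFinOrder g) (S : Set G) (hSf : S.Finite)
    (hS : Subgroup.closure S = ⊤) (x : X) (C : ℕ) (F : ℕ → Set X)
    (hmono : Monotone F) (hU : ⋃ n, F n = MulAction.orbit G x) (hfin : ∀ n, (F n).Finite)
    (hb : ∀ n, (bdry S (F n)).ncard ≤ C) : (MulAction.orbit G x).Finite := by
  have hsub : ∀ n, F n ⊆ MulAction.orbit G x := fun n => hU ▸ Set.subset_iUnion F n
  have himg : ∀ n, Subtype.val '' (Subtype.val ⁻¹' F n : Set ↥(MulAction.orbit G x)) = F n := by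
    intro n
    rw [Subtype.image_preimage_coe, Set.inter_eq_right]
    exact hsub n
  have h := thin_finite (X := ↥(MulAction.orbit G x)) hper S hSf hS C
    (fun n => Subtype.val ⁻¹' F n) (fun a b hab y hy => hmono hab hy) (by
      apply Set.eq_univ_of_forall
      rintro ⟨y, hy⟩
      rw [← hU] at hy
      obtain ⟨n, hn⟩ := Set.mem_iUnion.1 hy
      exact Set.mem_iUnion.2 ⟨n, hn⟩)
    (fun n => (hfin n).preimage Subtype.val_injective.injOn) (fun n => by
      have h1 := image_bdry S x (Subtype.val ⁻¹' F n)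
      rw [himg] at h1
      rw [← Set.ncard_image_of_injective _ Subtype.val_injective, h1]
      exact hb n)
  exact Set.toFinite _

/-- Boundaries of finite exhausting sets of an infinite orbit tend to infinity. -/
theorem exhaust_orbit [Group.IsFinitelyPresented G]
    (hper : ∀ g : G, IsOfFinOrder g) (S : Set G) (hSf : S.Finite)
    (hS : Subgroup.closure S = ⊤) (x : X) (hx : (MulAction.orbit G x).Infinite) (C : ℕ) :
    ∃ K : Set X, K.Finite ∧ K ⊆ MulAction.orbit G x ∧
      ∀ F : Set X, F.Finite → K ⊆ F → F ⊆ MulAction.orbit G x → C < (bdry S F).ncard := by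
  classical
  by_contra hcon
  push Not at hcon
  have : Countable G := countable_of_fp
  obtain ⟨enum, henum⟩ := exists_surjective_nat G
  choose Φ hΦ1 hΦ2 hΦ4 hΦ3 using hcon
  let T : ℕ → {A : Set X // A.Finite ∧ A ⊆ MulAction.orbit G x} := fun n =>
    Nat.rec ⟨Φ {x} (Set.finite_singleton x) (Set.singleton_subset_iff.2
        (MulAction.mem_orbit_self x)), hΦ1 _ _ _, hΦ4 _ _ _⟩
      (fun n A => ⟨Φ (A.1 ∪ {enum n • x}) (A.2.1.union (Set.finite_singleton _))
        (Set.union_subset A.2.2 (Set.singleton_subset_iff.2 ⟨enum n, rfl⟩)),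
          hΦ1 _ _ _, hΦ4 _ _ _⟩) n
  have hTs : ∀ n, (T (n + 1)).1 = Φ ((T n).1 ∪ {enum n • x})
      ((T n).2.1.union (Set.finite_singleton _))
      (Set.union_subset (T n).2.2 (Set.singleton_subset_iff.2 ⟨enum n, rfl⟩)) := fun n => rfl
  have hmono : Monotone fun n => (T n).1 := by
    apply monotone_nat_of_le_succ
    intro n
    rw [hTs]
    exact Set.subset_union_left.trans (hΦ2 _ _ _)
  have hU : ⋃ n, (T n).1 = MulAction.orbit G x := by
    apply Set.Subset.antisymm
    · exact Set.iUnion_subset fun n => (T n).2.2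
    · rintro y ⟨g, rfl⟩
      obtain ⟨n, rfl⟩ := henum g
      refine Set.mem_iUnion.2 ⟨n + 1, ?_⟩
      rw [hTs]
      exact hΦ2 _ _ _ (Or.inr rfl)
  exact hx (thin_orbit hper S hSf hS x C (fun n => (T n).1) hmono hU (fun n => (T n).2.1)
    (fun n => by
      cases n with
      | zero => exact hΦ3 _ _ _
      | succ n => exact hΦ3 _ _ _))

end

section Tree

variable {G A : Type*} [Group G] [Finite A] [MulAction G (ℕ → A)]

/-- Points whose tail is moved at all levels by an element of bounded activity: finitely many. -/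
theorem sing_finite (g : G) (C : ℕ) (hC : ∀ n, (activity (A := A) g n).ncard ≤ C) :
    {ξ : ℕ → A | ∀ n, ∃ k, n ≤ k ∧ (g • ξ) k ≠ ξ k}.Finite := by
  classical
  by_contra hinf
  obtain ⟨t, ht, htc⟩ := (show Set.Infinite {ξ : ℕ → A | ∀ n, ∃ k, n ≤ k ∧ (g • ξ) k ≠ ξ k} from
    hinf).exists_subset_card_eq (C + 1)
  -- a level separating the points of `t`
  obtain ⟨n, hn⟩ : ∃ n, ∀ a ∈ t, ∀ b ∈ t, (∀ i : Fin n, a i = b i) → a = b := by
    have hsep : ∀ q : (ℕ → A) × (ℕ → A), ∃ n : ℕ, q.1 ≠ q.2 → ∃ i < n, q.1 i ≠ q.2 i := by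
      intro q
      by_cases h : q.1 = q.2
      · exact ⟨0, fun h' => absurd h h'⟩
      · obtain ⟨i, hi⟩ := Function.ne_iff.1 h
        exact ⟨i + 1, fun _ => ⟨i, by omega, hi⟩⟩
    choose nn hnn using hsep
    refine ⟨(t ×ˢ t).sup nn, fun a ha b hb hab => ?_⟩
    by_contra hne
    obtain ⟨i, hi, hi'⟩ := hnn (a, b) hne
    have h1 : nn (a, b) ≤ (t ×ˢ t).sup nn := Finset.le_sup (Finset.mem_product.2 ⟨ha, hb⟩)
    exact hi' (hab ⟨i, hi.trans_le h1⟩)
  have hinj : Set.InjOn (fun ξ : ℕ → A => fun i : Fin n => ξ i) (t : Set (ℕ → A)) := by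
    intro a ha b hb hab
    exact hn a ha b hb fun i => congrFun hab i
  have hsub : (fun ξ : ℕ → A => fun i : Fin n => ξ i) '' (t : Set (ℕ → A)) ⊆
      activity (A := A) g n := by
    rintro _ ⟨ξ, hξ, rfl⟩
    exact ⟨ξ, fun i => rfl, ht hξ n⟩
  have h1 := Set.ncard_le_ncard hsub (Set.toFinite _)
  rw [hinj.ncard_image, Set.ncard_coe_finset, htc] at h1
  have h2 := hC n
  omega

/-- **Actions of bounded type.**  If every element has bounded activity, then all points outside
a countable set have finite orbits. -/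
theorem bounded_type [Group.IsFinitelyPresented G] (hper : ∀ g : G, IsOfFinOrder g)
    (hact : ∀ g : G, ∃ C : ℕ, ∀ n, (activity (A := A) g n).ncard ≤ C) :
    {ξ : ℕ → A | (MulAction.orbit G ξ).Infinite}.Countable := by
  classical
  have : Countable G := countable_of_fp
  choose C hC using hact
  have hcount : (⋃ g : G, {ξ : ℕ → A | ∀ n, ∃ k, n ≤ k ∧ (g • ξ) k ≠ ξ k}).Countable :=
    Set.countable_iUnion fun g => (sing_finite g (C g) (hC g)).countable
  refine hcount.mono ?_
  intro ξ hξ
  by_contra hreg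
  apply hξ
  have hreg' : ∀ g : G, ∃ n, ∀ k, n ≤ k → (g • ξ) k = ξ k := by
    intro g
    by_contra hcon
    push Not at hcon
    exact hreg (Set.mem_iUnion.2 ⟨g, hcon⟩)
  obtain ⟨r, π, hπ, _⟩ := (inferInstance : Group.IsFinitelyPresented G).out
  let S : Set G := Set.range fun i => π (FreeGroup.of i)
  have hSf : S.Finite := Set.finite_range _
  have hS : Subgroup.closure S = ⊤ := by
    have h1 : S = π '' (Set.range FreeGroup.of) := by
      rw [← Set.range_comp]
      rfl
    rw [h1, ← MonoidHom.map_closure, FreeGroup.closure_range_of, ← MonoidHom.range_eq_map,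
      MonoidHom.range_eq_top.2 hπ]
  let F : ℕ → Set (ℕ → A) := fun n => {y | y ∈ MulAction.orbit G ξ ∧ ∀ k, n ≤ k → y k = ξ k}
  -- points of `F n` are determined by their first `n` letters
  have hinj : ∀ n, Set.InjOn (fun y : ℕ → A => fun i : Fin n => y i) (F n) := by
    intro n a ha b hb hab
    funext k
    by_cases hk : k < n
    · exact congrFun hab ⟨k, hk⟩
    · rw [ha.2 k (by omega), hb.2 k (by omega)]
  have hfin : ∀ n, (F n).Finite := fun n =>
    Set.Finite.of_finite_image (Set.toFinite _) (hinj n)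
  have hmono : Monotone F := by
    intro a b hab y hy
    exact ⟨hy.1, fun k hk => hy.2 k (hab.trans hk)⟩
  have hU : ⋃ n, F n = MulAction.orbit G ξ := by
    apply Set.Subset.antisymm
    · exact Set.iUnion_subset fun n y hy => hy.1
    · rintro y ⟨g, rfl⟩
      obtain ⟨n, hn⟩ := hreg' g
      exact Set.mem_iUnion.2 ⟨n, ⟨g, rfl⟩, hn⟩
  let SS : Finset G := (hSf.union hSf.inv).toFinset
  have hb : ∀ n, (bdry S (F n)).ncard ≤ ∑ s ∈ SS, C s := by
    intro n
    have hbf : (bdry S (F n)).Finite := (hfin n).subset (bdry_subset _ _)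
    have hsub : (fun y : ℕ → A => fun i : Fin n => y i) '' (bdry S (F n)) ⊆
        ⋃ s ∈ SS, activity (A := A) s n := by
      rintro _ ⟨y, ⟨hy, s, hs, hs'⟩, rfl⟩
      have key : ∀ u : G, u • y ∉ F n → (fun i : Fin n => y i) ∈ activity (A := A) u n := by
        intro u hu
        refine ⟨y, fun i => rfl, ?_⟩
        by_contra hcon
        push Not at hcon
        apply hu
        refine ⟨?_, fun k hk => ?_⟩
        · exact MulAction.mem_orbit_of_mem_orbit u hy.1
        · rw [hcon k hk, hy.2 k hk]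
      rcases hs' with h | h
      · refine Set.mem_biUnion (x := s) ?_ (key s h)
        simp only [SS, Finset.mem_coe, Set.Finite.mem_toFinset]
        exact Or.inl hs
      · refine Set.mem_biUnion (x := s⁻¹) ?_ (key s⁻¹ h)
        simp only [SS, Finset.mem_coe, Set.Finite.mem_toFinset]
        exact Or.inr (by simpa using hs)
    have h1 := Set.ncard_le_ncard hsub (Set.toFinite _)
    rw [((hinj n).mono (bdry_subset _ _)).ncard_image] at h1
    refine h1.trans ?_
    have h2 : ∀ U : Finset G, (⋃ s ∈ U, activity (A := A) s n).ncard ≤ ∑ s ∈ U, C s := by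
      intro U
      induction U using Finset.induction_on with
      | empty => simp
      | insert a U ha ih =>
        rw [Finset.set_biUnion_insert, Finset.sum_insert ha]
        refine (Set.ncard_union_le _ _).trans ?_
        have := hC a n
        omega
    exact h2 SS
  exact thin_orbit hper S hSf hS ξ _ F hmono hU hfin hb

end Tree

end Vale.Agent.P192
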