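import Mathlib
import Vale.Agent.P192.Tree

/-!
# P192: actions of bounded type on spaces of sequences have finite orbits
-/

open scoped Pointwise

namespace Vale.Agent.P192

open Vale.Agent.P196 Vale.Agent.P196.Glue

variable {G A : Type*} [Group G] [Finite A] [MulAction G (ℕ → A)]

/-- **Actions of bounded type.**  If every element has bounded activity, then all orbits are
finite. -/
theorem bounded_type_all [Group.IsFinitelyPresented G] (hper : ∀ g : G, IsOfFinOrder g)
    (hact : ∀ g : G, ∃ C : ℕ, ∀ n, (activity (A := A) g n).ncard ≤ C) (ξ : ℕ → A) :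
    (MulAction.orbit G ξ).Finite := by
  classical
  choose C hC using hact
  obtain ⟨r, π, hπ, _⟩ := (inferInstance : Group.IsFinitelyPresented G).out
  let S : Set G := Set.range fun i => π (FreeGroup.of i)
  have hSf : S.Finite := Set.finite_range _
  have hS : Subgroup.closure S = ⊤ := by
    have h1 : S = π '' (Set.range FreeGroup.of) := by
      rw [← Set.range_comp]
      rfl
    rw [h1, ← MonoidHom.map_closure, FreeGroup.closure_range_of, ← MonoidHom.range_eq_map,
      MonoidHom.range_eq_top.2 hπ]
  let SS : Finset G := (hSf.union hSf.inv).toFinset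
  have hSS : ∀ s : G, s ∈ SS ↔ s ∈ S ∨ s⁻¹ ∈ S := by
    intro s
    simp only [SS, Set.Finite.mem_toFinset, Set.mem_union, Set.mem_inv]
  -- the singular points of the generators, and the starting point
  let Z : Set (ℕ → A) := (⋃ s ∈ SS, {η : ℕ → A | ∀ n, ∃ k, n ≤ k ∧ (s • η) k ≠ η k}) ∪ {ξ}
  have hZ : Z.Finite := by
    refine Set.Finite.union ?_ (Set.finite_singleton ξ)
    exact SS.finite_toSet.biUnion fun s _ => sing_finite s (C s) (hC s)
  -- every point of the orbit is cofinal with a point of `Z`
  have hcof : ∀ y ∈ MulAction.orbit G ξ, ∃ z ∈ Z, ∃ n, ∀ k, n ≤ k → y k = z k := by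
    rintro y ⟨g, rfl⟩
    have hg : g ∈ Submonoid.closure (S ∪ S⁻¹) := by
      rw [← Subgroup.closure_toSubmonoid, hS]
      exact Submonoid.mem_top g
    obtain ⟨l, hl, hl'⟩ := Submonoid.exists_list_of_mem_closure hg
    rw [← hl']
    clear hl' hg
    induction l with
    | nil => exact ⟨ξ, Or.inr rfl, 0, fun k _ => by simp⟩
    | cons s l ih =>
      obtain ⟨z, hz, n, hn⟩ := ih fun t ht => hl t (List.mem_cons_of_mem _ ht)
      have hs : s ∈ SS := by
        rw [hSS]
        rcases hl s List.mem_cons_self with h | h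
        · exact Or.inl h
        · exact Or.inr (by simpa using h)
      have e : (fun m : G => m • ξ) (s :: l).prod = s • l.prod • ξ := by
        simp only [List.prod_cons, mul_smul]
      rw [e]
      by_cases hsing : ∃ m, ∀ k, m ≤ k → (s • l.prod • ξ) k = (l.prod • ξ) k
      · obtain ⟨m, hm⟩ := hsing
        exact ⟨z, hz, max n m, fun k hk => by
          rw [hm k (le_of_max_le_right hk)]
          exact hn k (le_of_max_le_left hk)⟩
      · push Not at hsing
        refine ⟨s • l.prod • ξ, Or.inl ?_, 0, fun k _ => rfl⟩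
        have hs' : s⁻¹ ∈ SS := by
          rw [hSS] at hs ⊢
          rcases hs with h | h
          · exact Or.inr (by rwa [inv_inv])
          · exact Or.inl h
        refine Set.mem_biUnion (x := s⁻¹) hs' fun m => ?_
        obtain ⟨k, hk, hne⟩ := hsing m
        exact ⟨k, hk, by rw [inv_smul_smul]; exact fun h => hne h.symm⟩
  let F : ℕ → Set (ℕ → A) := fun n =>
    {y | y ∈ MulAction.orbit G ξ ∧ ∃ z ∈ Z, ∀ k, n ≤ k → y k = z k}
  -- points of `F n` are determined by their first `n` letters and a point of `Z`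
  choose! ζ hζ1 hζ2 using (fun (n : ℕ) (y : ℕ → A) (hy : y ∈ F n) => hy.2 :
    ∀ (n : ℕ) (y : ℕ → A), y ∈ F n → ∃ z, z ∈ Z ∧ ∀ k, n ≤ k → y k = z k)
  have hinj : ∀ n, Set.InjOn (fun y : ℕ → A => ((fun i : Fin n => y i), ζ n y)) (F n) := by
    intro n a ha b hb hab
    have h1 := congrArg Prod.fst hab
    have h2 := congrArg Prod.snd hab
    simp only at h1 h2
    funext k
    by_cases hk : k < n
    · exact congrFun h1 ⟨k, hk⟩
    · rw [hζ2 n a ha k (by omega), hζ2 n b hb k (by omega), h2]
  have hfin : ∀ n, (F n).Finite := by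
    intro n
    refine Set.Finite.of_finite_image (f := fun y : ℕ → A => ((fun i : Fin n => y i), ζ n y))
      ?_ (hinj n)
    refine ((Set.toFinite (Set.univ : Set (Fin n → A))).prod hZ).subset ?_
    rintro _ ⟨y, hy, rfl⟩
    exact ⟨Set.mem_univ _, hζ1 n y hy⟩
  have hmono : Monotone F := by
    rintro a b hab y ⟨hy, z, hz, h⟩
    exact ⟨hy, z, hz, fun k hk => h k (hab.trans hk)⟩
  have hU : ⋃ n, F n = MulAction.orbit G ξ := by
    apply Set.Subset.antisymm
    · exact Set.iUnion_subset fun n y hy => hy.1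
    · intro y hy
      obtain ⟨z, hz, n, hn⟩ := hcof y hy
      exact Set.mem_iUnion.2 ⟨n, hy, z, hz, hn⟩
  have hb : ∀ n, (bdry S (F n)).ncard ≤ (∑ s ∈ SS, C s) * Z.ncard := by
    intro n
    have hsub : (fun y : ℕ → A => ((fun i : Fin n => y i), ζ n y)) '' (bdry S (F n)) ⊆
        (⋃ s ∈ SS, activity (A := A) s n) ×ˢ Z := by
      rintro _ ⟨y, ⟨hy, s, hs, hs'⟩, rfl⟩
      have key : ∀ u : G, u • y ∉ F n → (fun i : Fin n => y i) ∈ activity (A := A) u n := by
        intro u hu
        refine ⟨y, fun i => rfl, ?_⟩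
        by_contra hcon
        push Not at hcon
        apply hu
        obtain ⟨hy1, z, hz, hyz⟩ := hy
        refine ⟨MulAction.mem_orbit_of_mem_orbit u hy1, z, hz, fun k hk => ?_⟩
        rw [hcon k hk, hyz k hk]
      refine ⟨?_, hζ1 n y hy⟩
      rcases hs' with h | h
      · exact Set.mem_biUnion (x := s) ((hSS s).2 (Or.inl hs)) (key s h)
      · exact Set.mem_biUnion (x := s⁻¹) ((hSS s⁻¹).2 (Or.inr (by rwa [inv_inv]))) (key s⁻¹ h)
    have hZfin : ((⋃ s ∈ SS, activity (A := A) s n) ×ˢ Z).Finite :=
      (Set.toFinite _).prod hZ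
    have h1 := Set.ncard_le_ncard hsub hZfin
    rw [((hinj n).mono (bdry_subset _ _)).ncard_image, Set.ncard_prod] at h1
    refine h1.trans (Nat.mul_le_mul_right _ ?_)
    have h2 : ∀ U : Finset G, (⋃ s ∈ U, activity (A := A) s n).ncard ≤ ∑ s ∈ U, C s := by
      intro U
      induction U using Finset.induction_on with
      | empty => simp
      | insert a U ha ih =>
        rw [Finset.set_biUnion_insert, Finset.sum_insert ha]
        refine (Set.ncard_union_le _ _).trans ?_
        have := hC a n
        omega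
    exact h2 SS
  exact thin_orbit hper S hSf hS ξ _ F hmono hU hfin hb

end Vale.Agent.P192
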