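import Mathlib
import Vale.Agent.P192.TreeAll
import Vale.Agent.P192.Chain2
import Vale.Agent.P192.Heavy

/-!
# P192: actions of bounded type on spaces of sequences have finite image
-/

open scoped Pointwise

namespace Vale.Agent.P192

open Vale.Agent.P196 Vale.Agent.P196.Glue

universe u v

section Basic

variable {G : Type*} {X : Type*} [Group G] [MulAction G X]

theorem Reach.trans {S : Set G} {F : Set X} {x y z : X} (h : Reach S F x y)
    (h' : Reach S F y z) : Reach S F x z := by
  induction h' with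
  | base _ => exact h
  | step z s _ hs h2 ih => exact .step z s ih hs h2

theorem Reach.start {S : Set G} {F : Set X} {x y : X} (h : Reach S F x y) : x ∈ F := by
  induction h with
  | base h => exact h
  | step _ _ _ _ _ ih => exact ih

theorem Reach.symm {S : Set G} {F : Set X} {x y : X} (h : Reach S F x y) : Reach S F y x := by
  induction h with
  | base h => exact .base h
  | step y s hy hs hsy ih =>
    have h1 : Reach S F (s • y) (s⁻¹ • s • y) := by
      refine .step (s • y) s⁻¹ (.base hsy) ?_ ?_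
      · rcases hs with h | h
        · exact Or.inr (by rwa [inv_inv])
        · exact Or.inl h
      · rw [inv_smul_smul]; exact hy.mem
    rw [inv_smul_smul] at h1
    exact h1.trans ih

/-- Leaving a set along a path. -/
theorem Reach.exit {S : Set G} {F P : Set X} {x y : X} (h : Reach S F x y) (hx : x ∈ P)
    (hy : y ∉ P) : ∃ b ∈ P, Reach S F x b ∧ ∃ s : G, (s ∈ S ∨ s⁻¹ ∈ S) ∧ s • b ∈ F ∧
      s • b ∉ P := by
  induction h with
  | base _ => exact absurd hx hy
  | step y s h1 hs hsy ih =>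
    by_cases hyP : y ∈ P
    · exact ⟨y, hyP, h1, s, hs, hsy, hy⟩
    · exact ih hyP

theorem reach_orbit {S : Set G} (hS : Subgroup.closure S = ⊤) (x y : X)
    (hy : y ∈ MulAction.orbit G x) : Reach S (MulAction.orbit G x) x y := by
  obtain ⟨g, rfl⟩ := hy
  have hg : g ∈ Submonoid.closure (S ∪ S⁻¹) := by
    rw [← Subgroup.closure_toSubmonoid, hS]
    exact Submonoid.mem_top g
  obtain ⟨l, hl, hl'⟩ := Submonoid.exists_list_of_mem_closure hg
  rw [← hl']
  clear hl' hg
  induction l with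
  | nil =>
    have e : (fun m : G => m • x) ([] : List G).prod = x := by simp
    rw [e]
    exact Reach.base (MulAction.mem_orbit_self x)
  | cons s l ih =>
    have e : (fun m : G => m • x) (s :: l).prod = s • (fun m : G => m • x) l.prod := by
      simp only [List.prod_cons, mul_smul]
    rw [e]
    refine Reach.step _ s (ih fun t ht => hl t (List.mem_cons_of_mem _ ht)) ?_ ?_
    · rcases hl s List.mem_cons_self with h | h
      · exact Or.inl h
      · exact Or.inr (by simpa using h)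
    · exact MulAction.mem_orbit_of_mem_orbit s ⟨l.prod, rfl⟩

end Basic

variable {G : Type u} {A : Type v} [Group G] [MulAction G (ℕ → A)]

/-- points of the orbit of `y` with the same tail -/
def tl (G : Type u) {A : Type v} [Group G] [MulAction G (ℕ → A)] (n : ℕ) (y : ℕ → A) :
    Set (ℕ → A) :=
  {z | z ∈ MulAction.orbit G y ∧ ∀ k, n ≤ k → z k = y k}

theorem tl_self (n : ℕ) (y : ℕ → A) : y ∈ tl G n y :=
  ⟨MulAction.mem_orbit_self y, fun _ _ => rfl⟩

theorem tl_eq {n : ℕ} {y z : ℕ → A} (h : z ∈ tl G n y) : tl G n z = tl G n y := by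
  ext w
  have ho : MulAction.orbit G z = MulAction.orbit G y := MulAction.orbit_eq_iff.2 h.1
  constructor
  · rintro ⟨h1, h2⟩
    exact ⟨ho ▸ h1, fun k hk => by rw [h2 k hk, h.2 k hk]⟩
  · rintro ⟨h1, h2⟩
    exact ⟨ho ▸ h1, fun k hk => by rw [h2 k hk, h.2 k hk]⟩

/-- the class of `y` at level `n` -/
def cls (S : Set G) (n : ℕ) (y : ℕ → A) : Set (ℕ → A) := comp S (tl G n y) y

theorem cls_self (S : Set G) (n : ℕ) (y : ℕ → A) : y ∈ cls S n y := Reach.base (tl_self n y)

theorem cls_eq {S : Set G} {n : ℕ} {y z : ℕ → A} (h : z ∈ cls S n y) :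
    cls S n z = cls S n y := by
  have h1 : Reach S (tl G n y) y z := h
  have h2 : tl G n z = tl G n y := tl_eq h1.mem
  ext w
  constructor
  · intro hw
    have hw' : Reach S (tl G n z) z w := hw
    rw [h2] at hw'
    exact h1.trans hw'
  · intro hw
    have hw' : Reach S (tl G n y) y w := hw
    show Reach S (tl G n z) z w
    rw [h2]
    exact h1.symm.trans hw'

theorem cls_mono (S : Set G) (n : ℕ) (y : ℕ → A) : cls S n y ⊆ cls S (n + 1) y := by
  have h : tl G n y ⊆ tl G (n + 1) y := by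
    rintro z ⟨h1, h2⟩
    exact ⟨h1, fun k hk => h2 k (by omega)⟩
  exact comp_mono S h y

theorem cls_sub_orbit (S : Set G) (n : ℕ) (y : ℕ → A) : cls S n y ⊆ MulAction.orbit G y :=
  fun _ h => (comp_subset S _ y h).1

theorem cls_zero (S : Set G) (y : ℕ → A) : (cls S 0 y).ncard ≤ 1 := by
  have h : cls S 0 y ⊆ {y} := by
    intro z hz
    have h1 := (comp_subset S _ y hz).2
    rw [Set.mem_singleton_iff]
    funext k
    exact h1 k (Nat.zero_le k)
  refine (Set.ncard_le_ncard h (Set.finite_singleton y)).trans ?_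
  rw [Set.ncard_singleton]

/-- a step that leaves the class starts at an active word -/
theorem cls_exit {S : Set G} {n : ℕ} {z b : ℕ → A} (hb : b ∈ cls S n z) {s : G}
    (hs : s ∈ S ∨ s⁻¹ ∈ S) (hsb : s • b ∉ cls S n z) :
    ∃ k, n ≤ k ∧ (s • b) k ≠ b k := by
  by_contra hcon
  push Not at hcon
  apply hsb
  have hb' : Reach S (tl G n z) z b := hb
  refine Reach.step b s hb' hs ⟨?_, fun k hk => ?_⟩
  · exact MulAction.mem_orbit_of_mem_orbit s hb'.mem.1
  · rw [hcon k hk, hb'.mem.2 k hk]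

section Count

variable [Finite A]

omit [Finite A] in
theorem act_card (SS : Finset G) (C : G → ℕ) (hC : ∀ g n, (activity (A := A) g n).ncard ≤ C g)
    (n : ℕ) : (⋃ s ∈ SS, activity (A := A) s n).ncard ≤ ∑ s ∈ SS, C s := by
  classical
  induction SS using Finset.induction_on with
  | empty => simp
  | insert a U ha ih =>
    rw [Finset.set_biUnion_insert, Finset.sum_insert ha]
    refine (Set.ncard_union_le _ _).trans ?_
    have := hC a n
    omega

theorem cls_bdry (S : Set G) (SS : Finset G) (hSS : ∀ s : G, s ∈ SS ↔ s ∈ S ∨ s⁻¹ ∈ S)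
    (C : G → ℕ) (hC : ∀ g n, (activity (A := A) g n).ncard ≤ C g) (n : ℕ) (y : ℕ → A) :
    (bdry S (cls S n y)).ncard ≤ ∑ s ∈ SS, C s := by
  have hinj : Set.InjOn (fun y : ℕ → A => fun i : Fin n => y i) (tl G n y) := by
    intro a ha b hb hab
    funext k
    by_cases hk : k < n
    · exact congrFun hab ⟨k, hk⟩
    · rw [ha.2 k (by omega), hb.2 k (by omega)]
  have hsubset : bdry S (cls S n y) ⊆ tl G n y :=
    (bdry_subset _ _).trans (comp_subset S _ y)
  have hsub : (fun y : ℕ → A => fun i : Fin n => y i) '' (bdry S (cls S n y)) ⊆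
      ⋃ s ∈ SS, activity (A := A) s n := by
    rintro _ ⟨b, ⟨hb, s, hs, hs'⟩, rfl⟩
    rcases hs' with h | h
    · exact Set.mem_biUnion (x := s) ((hSS s).2 (Or.inl hs))
        ⟨b, fun i => rfl, cls_exit hb (Or.inl hs) h⟩
    · have hs2 : s⁻¹ ∈ S ∨ (s⁻¹)⁻¹ ∈ S := Or.inr (by rwa [inv_inv])
      exact Set.mem_biUnion (x := s⁻¹) ((hSS s⁻¹).2 hs2)
        ⟨b, fun i => rfl, cls_exit hb hs2 h⟩
  have h1 := Set.ncard_le_ncard hsub (Set.toFinite _)
  rw [(hinj.mono hsubset).ncard_image] at h1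
  exact h1.trans (act_card SS C hC n)

theorem cls_next (S : Set G) (SS : Finset G) (hSS : ∀ s : G, s ∈ SS ↔ s ∈ S ∨ s⁻¹ ∈ S)
    (C : G → ℕ) (hC : ∀ g n, (activity (A := A) g n).ncard ≤ C g)
    (hfinO : ∀ y : ℕ → A, (MulAction.orbit G y).Finite) (n : ℕ) (y : ℕ → A)
    (hne : cls S (n + 1) y ≠ cls S n y) :
    ∃ B : Set (ℕ → A), B.Finite ∧ B.ncard ≤ Nat.card A * ∑ s ∈ SS, C s ∧
      ∀ z ∈ cls S (n + 1) y, ∃ b ∈ B, cls S n b = cls S n z := by
  refine ⟨{b | b ∈ tl G (n + 1) y ∧ (fun i : Fin n => b i) ∈ ⋃ s ∈ SS, activity (A := A) s n},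
    (hfinO y).subset fun b hb => hb.1.1, ?_, ?_⟩
  · have hinj : Set.InjOn (fun y : ℕ → A => (y n, fun i : Fin n => y i))
        {b | b ∈ tl G (n + 1) y ∧
          (fun i : Fin n => b i) ∈ ⋃ s ∈ SS, activity (A := A) s n} := by
      intro a ha b hb hab
      have h1 := congrArg Prod.fst hab
      have h2 := congrArg Prod.snd hab
      simp only at h1 h2
      funext k
      rcases lt_trichotomy k n with hk | hk | hk
      · exact congrFun h2 ⟨k, hk⟩
      · rw [hk]; exact h1
      · rw [ha.1.2 k (by omega), hb.1.2 k (by omega)]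
    have hsub : (fun y : ℕ → A => (y n, fun i : Fin n => y i)) ''
        {b | b ∈ tl G (n + 1) y ∧
          (fun i : Fin n => b i) ∈ ⋃ s ∈ SS, activity (A := A) s n} ⊆
        (Set.univ : Set A) ×ˢ (⋃ s ∈ SS, activity (A := A) s n) := by
      rintro _ ⟨b, hb, rfl⟩
      exact ⟨Set.mem_univ _, hb.2⟩
    have h1 := Set.ncard_le_ncard hsub (Set.toFinite _)
    rw [hinj.ncard_image, Set.ncard_prod, Set.ncard_univ] at h1
    exact h1.trans (Nat.mul_le_mul_left _ (act_card SS C hC n))
  · intro z hz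
    have hzne : cls S n z ≠ cls S (n + 1) z := by
      intro h
      apply hne
      have h2 := cls_eq hz
      have hyz : y ∈ cls S n z := by
        rw [h, h2]
        exact cls_self _ _ _
      rw [cls_eq hyz, h, h2]
    obtain ⟨w, hw1, hw2⟩ := Set.exists_of_ssubset ((cls_mono S n z).ssubset_of_ne hzne)
    have hw : Reach S (tl G (n + 1) z) z w := hw1
    obtain ⟨b, hb, hzb, s, hs, hsb, hsb'⟩ := hw.exit (cls_self S n z) hw2
    refine ⟨b, ⟨?_, ?_⟩, cls_eq hb⟩
    · have h3 : Reach S (tl G (n + 1) y) y z := hz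
      rw [← tl_eq h3.mem]
      exact hzb.mem
    · exact Set.mem_biUnion (x := s) ((hSS s).2 hs) ⟨b, fun i => rfl, cls_exit hb hs hsb'⟩

end Count

/-- **Actions of bounded type.**  If every element has bounded activity, then the action factors
through a finite group. -/
theorem bounded_type_fin [Finite A] [Group.IsFinitelyPresented G]
    (hper : ∀ g : G, IsOfFinOrder g)
    (hact : ∀ g : G, ∃ C : ℕ, ∀ n, (activity (A := A) g n).ncard ≤ C) :
    (Set.range (MulAction.toPermHom G (ℕ → A))).Finite := by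
  classical
  have hfinO : ∀ y : ℕ → A, (MulAction.orbit G y).Finite := bounded_type_all hper hact
  choose C hC using hact
  obtain ⟨r, π, hπ, _⟩ := (inferInstance : Group.IsFinitelyPresented G).out
  let S : Set G := Set.range fun i => π (FreeGroup.of i)
  have hSf : S.Finite := Set.finite_range _
  have hS : Subgroup.closure S = ⊤ := by
    have h1 : S = π '' (Set.range FreeGroup.of) := by
      rw [← Set.range_comp]
      rfl
    rw [h1, ← MonoidHom.map_closure, FreeGroup.closure_range_of, ← MonoidHom.range_eq_map,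
      MonoidHom.range_eq_top.2 hπ]
  let SS : Finset G := (hSf.union hSf.inv).toFinset
  have hSS : ∀ s : G, s ∈ SS ↔ s ∈ S ∨ s⁻¹ ∈ S := by
    intro s
    simp only [SS, Set.Finite.mem_toFinset, Set.mem_union, Set.mem_inv]
  -- the singular points of the generators
  let Z : Set (ℕ → A) := ⋃ s ∈ SS, {η : ℕ → A | ∀ n, ∃ k, n ≤ k ∧ (s • η) k ≠ η k}
  have hZ : Z.Finite := SS.finite_toSet.biUnion fun s _ => sing_finite s (C s) (hC s)
  obtain ⟨ℓ, hℓ⟩ := chain_bound.{u, v} hper S hSf hS (∑ s ∈ SS, C s)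
  let D : ℕ := Nat.card A * ∑ s ∈ SS, C s + 1
  -- classes are bounded
  have hcls : ∀ n (y : ℕ → A), (cls S n y).ncard ≤ D ^ ℓ := by
    intro n y
    obtain ⟨r, z, φ, hz, h1, h2, h3⟩ := heavy (cls S) D (cls_self S) (fun n y z h => cls_eq h)
      (cls_mono S) (fun n y => (hfinO y).subset (cls_sub_orbit S n y)) (cls_zero S)
      (fun n y hne => by
        obtain ⟨B, hB1, hB2, hB3⟩ := cls_next S SS hSS C hC hfinO n y hne
        exact ⟨B, hB1, hB2.trans (Nat.le_succ _), hB3⟩) n y
    have hr : r < ℓ := by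
      by_contra hcon
      push Not at hcon
      exact hℓ (ℕ → A) z (fun i => cls S (φ i) z)
        (fun i => (hfinO z).subset (cls_sub_orbit S _ z))
        (fun i hi => h1 i (hi.trans_le hcon)) (cls_self S _ z)
        (fun i y hy => comp_conn hy) (fun i => cls_bdry S SS hSS C hC _ z)
    exact h3.trans (Nat.pow_le_pow_right (Nat.succ_pos _) hr.le)
  refine finite_of_bounded π hπ (MulAction.toPermHom G (ℕ → A)) ((Z.ncard + 1) * D ^ ℓ) ?_
  intro ξ
  have horb : (Set.range fun g : G => MulAction.toPermHom G (ℕ → A) g ξ) =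
      MulAction.orbit G ξ := rfl
  rw [horb]
  refine ⟨hfinO ξ, ?_⟩
  -- a level which separates the cofinality classes in the orbit
  obtain ⟨n, hn⟩ : ∃ n, ∀ a ∈ MulAction.orbit G ξ, ∀ b ∈ MulAction.orbit G ξ,
      (∃ m, ∀ k, m ≤ k → a k = b k) → ∀ k, n ≤ k → a k = b k := by
    have hsep : ∀ q : (ℕ → A) × (ℕ → A), ∃ m : ℕ, (∃ m', ∀ k, m' ≤ k → q.1 k = q.2 k) →
        ∀ k, m ≤ k → q.1 k = q.2 k := by
      intro q
      by_cases h : ∃ m', ∀ k, m' ≤ k → q.1 k = q.2 k
      · obtain ⟨m, hm⟩ := h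
        exact ⟨m, fun _ => hm⟩
      · exact ⟨0, fun h' => absurd h' h⟩
    choose nn hnn using hsep
    refine ⟨((hfinO ξ).toFinset ×ˢ (hfinO ξ).toFinset).sup nn,
      fun a ha b hb hab k hk => hnn (a, b) hab k (le_trans ?_ hk)⟩
    exact Finset.le_sup (Finset.mem_product.2 ⟨(hfinO ξ).mem_toFinset.2 ha,
      (hfinO ξ).mem_toFinset.2 hb⟩)
  have hcov : ∀ z ∈ MulAction.orbit G ξ, ∃ b ∈ insert ξ Z, cls S n b = cls S n z := by
    intro z hz
    by_cases hξ : ξ ∈ cls S n z
    · exact ⟨ξ, Or.inl rfl, cls_eq hξ⟩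
    · have ho : MulAction.orbit G z = MulAction.orbit G ξ := MulAction.orbit_eq_iff.2 hz
      have hreach := reach_orbit hS z ξ (by rw [ho]; exact MulAction.mem_orbit_self ξ)
      obtain ⟨b, hb, hzb, s, hs, hsb, hsb'⟩ := hreach.exit (cls_self S n z) hξ
      refine ⟨b, Or.inr (Set.mem_biUnion (x := s) ((hSS s).2 hs) ?_), cls_eq hb⟩
      by_contra hcon
      have hcon' : ¬ ∀ n, ∃ k, n ≤ k ∧ (s • b) k ≠ b k := hcon
      push Not at hcon'
      obtain ⟨m, hm⟩ := hcon'
      have hb1 : b ∈ MulAction.orbit G ξ := ho ▸ hzb.mem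
      have hb2 : s • b ∈ MulAction.orbit G ξ := ho ▸ hsb
      have h4 := hn _ hb2 _ hb1 ⟨m, hm⟩
      obtain ⟨k, hk, hne⟩ := cls_exit hb hs hsb'
      exact hne (h4 k hk)
  have h5 := cover_card (MulAction.orbit G ξ) (cls S n) (cls_self S n)
    (fun z => (hfinO z).subset (cls_sub_orbit S n z)) (insert ξ Z) (hZ.insert ξ) hcov (D ^ ℓ)
    (fun z _ => hcls n z)
  refine h5.trans (Nat.mul_le_mul_right _ ?_)
  exact Set.ncard_insert_le ξ Z

end Vale.Agent.P192
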