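import Mathlib
import Vale.Agent.P192.TreeFin
import Vale.Agent.P192.CarvDef

/-!
# P192: finite orbits of finitely presented periodic groups have large carving width
-/

open scoped Pointwise

namespace Vale.Agent.P192

open Vale.Agent.P196 Vale.Agent.P196.Glue

universe u v

section

variable {G : Type*} {X : Type*} [Group G] [MulAction G X]

theorem Carv.finite {S : Set G} {C : ℕ} {F : Set X} (h : Carv S C F) : F.Finite := by
  induction h with
  | small F h _ => exact h
  | union F F' _ _ _ ih ih' => exact ih.union ih'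

theorem Carv.bdry_le {S : Set G} {C : ℕ} {F : Set X} (h : Carv S C F) :
    (Vale.Agent.P196.bdry S F).ncard ≤ C := by
  cases h with
  | small F h h' => exact (Set.ncard_le_ncard (bdry_subset _ _) h).trans h'
  | union F F' _ _ h => exact h

theorem comp_eq {S : Set G} {F : Set X} {x y : X} (h : y ∈ comp S F x) :
    comp S F y = comp S F x := by
  have h1 : Reach S F x y := h
  ext w
  constructor
  · intro hw
    exact h1.trans hw
  · intro hw
    exact h1.symm.trans hw

/-- A component of `F` which is a proper part of a component of a larger set contains a boundary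
point of `F`. -/
theorem exists_bdry_comp {S : Set G} {F U : Set X} {x z : X} (hz : z ∈ comp S U x)
    (hzF : z ∈ F) (hsub : comp S F z ⊆ comp S U x) (hne : comp S F z ≠ comp S U x) :
    ∃ b ∈ Vale.Agent.P196.bdry S F, comp S F b = comp S F z := by
  obtain ⟨w, hw1, hw2⟩ := Set.exists_of_ssubset (hsub.ssubset_of_ne hne)
  have h1 : Reach S U x z := hz
  have h2 : Reach S U x w := hw1
  have h3 : Reach S U z w := h1.symm.trans h2
  obtain ⟨b, hb, _, s, hs, _, hsb⟩ := h3.exit (P := comp S F z) (Reach.base hzF) hw2
  have hb' : Reach S F z b := hb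
  have hout : s • b ∉ F := fun h => hsb (Reach.step b s hb' hs h)
  refine ⟨b, ⟨hb'.mem, ?_⟩, comp_eq hb⟩
  rcases hs with h | h
  · exact ⟨s, h, Or.inl hout⟩
  · exact ⟨s⁻¹, h, Or.inr (by rwa [inv_inv])⟩

/-- A heavy path in a carving. -/
theorem Carv.heavy {S : Set G} {C : ℕ} {F : Set X} (h : Carv S C F) :
    ∀ x ∈ F, ∃ (r : ℕ) (z : X) (κ : ℕ → Set X), z ∈ comp S F x ∧ z ∈ κ 0 ∧
      (∀ i < r, κ i ⊂ κ (i + 1)) ∧ κ r = comp S F x ∧ (∀ i, (κ i).Finite) ∧
      (∀ i, ∀ y ∈ κ i, Reach S (κ i) z y) ∧ (∀ i, (Vale.Agent.P196.bdry S (κ i)).ncard ≤ C) ∧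
      (comp S F x).ncard ≤ (2 * C + 1) ^ r * C := by
  classical
  induction h with
  | small F hF hC =>
    intro x hx
    have hcf : (comp S F x).Finite := hF.subset (comp_subset S F x)
    refine ⟨0, x, fun _ => comp S F x, Reach.base hx, Reach.base hx,
      fun i hi => absurd hi (Nat.not_lt_zero i), rfl, fun _ => hcf,
      fun _ y hy => comp_conn hy, fun _ => ?_, ?_⟩
    · exact (Set.ncard_le_ncard (bdry_subset _ _) hcf).trans
        ((Set.ncard_le_ncard (comp_subset S F x) hF).trans hC)
    · rw [pow_zero, one_mul]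
      exact (Set.ncard_le_ncard (comp_subset S F x) hF).trans hC
  | union F F' hF hF' hb ih ih' =>
    intro x hx
    set P : Set X := comp S (F ∪ F') x with hP
    have hUf : (F ∪ F').Finite := hF.finite.union hF'.finite
    have hPf : P.Finite := hUf.subset (comp_subset S _ x)
    have hPb : (Vale.Agent.P196.bdry S P).ncard ≤ C :=
      (Set.ncard_le_ncard (bdry_comp S _ x) (hUf.subset (bdry_subset _ _))).trans hb
    have hxP : x ∈ P := Reach.base hx
    let Fi : Bool → Set X := fun i => cond i F' F
    have hcarv : ∀ i, Carv S C (Fi i) := by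
      intro i
      cases i
      · exact hF
      · exact hF'
    have hFiU : ∀ i, Fi i ⊆ F ∪ F' := by
      intro i
      cases i
      · exact Set.subset_union_left
      · exact Set.subset_union_right
    have hih : ∀ i, ∀ x ∈ Fi i, ∃ (r : ℕ) (z : X) (κ : ℕ → Set X), z ∈ comp S (Fi i) x ∧
        z ∈ κ 0 ∧ (∀ j < r, κ j ⊂ κ (j + 1)) ∧ κ r = comp S (Fi i) x ∧ (∀ j, (κ j).Finite) ∧
        (∀ j, ∀ y ∈ κ j, Reach S (κ j) z y) ∧
        (∀ j, (Vale.Agent.P196.bdry S (κ j)).ncard ≤ C) ∧
        (comp S (Fi i) x).ncard ≤ (2 * C + 1) ^ r * C := by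
      intro i
      cases i
      · exact ih
      · exact ih'
    have hsubP : ∀ i, ∀ z ∈ P, comp S (Fi i) z ⊆ P := by
      intro i z hz
      have h1 := comp_mono S (hFiU i) z
      rwa [comp_eq hz] at h1
    by_cases hone : ∃ i, ∃ z ∈ P, z ∈ Fi i ∧ comp S (Fi i) z = P
    · obtain ⟨i, z0, hz0P, hz0, heq⟩ := hone
      obtain ⟨r, z, κ, h1, h2, h3, h4, h5, h6, h7, h8⟩ := hih i z0 hz0
      rw [heq] at h1 h4 h8
      exact ⟨r, z, κ, h1, h2, h3, h4, h5, h6, h7, h8⟩
    · push Not at hone
      let I : Set (Bool × X) := {q | q.2 ∈ P ∧ q.2 ∈ Fi q.1}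
      have hI : I.Finite := by
        refine ((Set.toFinite (Set.univ : Set Bool)).prod hPf).subset ?_
        rintro ⟨i, z⟩ hz
        exact ⟨Set.mem_univ _, hz.1⟩
      have hIne : I.Nonempty := by
        rcases hx with h | h
        · exact ⟨(false, x), hxP, h⟩
        · exact ⟨(true, x), hxP, h⟩
      obtain ⟨⟨i, z0⟩, ⟨hz0P, hz0⟩, hmax⟩ := Set.exists_max_image I
        (fun q => (comp S (Fi q.1) q.2).ncard) hI hIne
      simp only at hz0P hz0 hmax
      have hc : ∀ i', (P ∩ Fi i').ncard ≤ C * (comp S (Fi i) z0).ncard := by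
        intro i'
        have h1 := cover_card (P ∩ Fi i') (fun z => if z ∈ Fi i' then comp S (Fi i') z else {z})
          (fun z => by
            by_cases hz : z ∈ Fi i'
            · simp only [if_pos hz]
              exact Reach.base hz
            · simp only [if_neg hz]
              exact Set.mem_singleton z)
          (fun z => by
            by_cases hz : z ∈ Fi i'
            · simp only [if_pos hz]
              exact (hcarv i').finite.subset (comp_subset S _ z)
            · simp only [if_neg hz]
              exact Set.finite_singleton z)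
          (Vale.Agent.P196.bdry S (Fi i')) ((hcarv i').finite.subset (bdry_subset _ _))
          (by
            rintro z ⟨hz1, hz2⟩
            obtain ⟨b, hb1, hb2⟩ := exists_bdry_comp hz1 hz2 (hsubP i' z hz1)
              (hone i' z hz1 hz2)
            refine ⟨b, hb1, ?_⟩
            have hbF : b ∈ Fi i' := bdry_subset _ _ hb1
            simp only [if_pos hbF, if_pos hz2]
            exact hb2)
          (comp S (Fi i) z0).ncard
          (by
            rintro z ⟨hz1, hz2⟩
            simp only [if_pos hz2]
            exact hmax (i', z) ⟨hz1, hz2⟩)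
        exact h1.trans (Nat.mul_le_mul_right _ (hcarv i').bdry_le)
      have hPcard : P.ncard ≤ 2 * C * (comp S (Fi i) z0).ncard := by
        have h1 : P ⊆ (P ∩ Fi false) ∪ (P ∩ Fi true) := by
          intro z hz
          rcases (comp_subset S _ x hz : z ∈ F ∪ F') with h | h
          · exact Or.inl ⟨hz, h⟩
          · exact Or.inr ⟨hz, h⟩
        have h2 := Set.ncard_le_ncard h1
          ((hPf.subset Set.inter_subset_left).union (hPf.subset Set.inter_subset_left))
        have h3 := Set.ncard_union_le (P ∩ Fi false) (P ∩ Fi true)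
        have h4 := hc false
        have h5 := hc true
        nlinarith
      obtain ⟨r, z, κ, h1, h2, h3, h4, h5, h6, h7, h8⟩ := hih i z0 hz0
      have hzP : z ∈ P := hsubP i z0 hz0P h1
      refine ⟨r + 1, z, fun j => if j ≤ r then κ j else P, hzP, ?_, ?_, ?_, ?_, ?_, ?_, ?_⟩
      · simp only [Nat.zero_le, if_true]
        exact h2
      · intro j hj
        rcases Nat.lt_or_ge j r with h | h
        · simp only [if_pos h.le, if_pos (Nat.succ_le_of_lt h)]
          exact h3 j h
        · have hjr : j = r := by omega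
          subst hjr
          simp only [le_refl, if_true, Nat.not_succ_le_self, if_false, h4]
          exact (hsubP i z0 hz0P).ssubset_of_ne (hone i z0 hz0P hz0)
      · simp only [Nat.not_succ_le_self, if_false]
      · intro j
        by_cases hj : j ≤ r
        · simp only [if_pos hj]; exact h5 j
        · simp only [if_neg hj]; exact hPf
      · intro j y hy
        by_cases hj : j ≤ r
        · simp only [if_pos hj] at hy ⊢
          exact h6 j y hy
        · simp only [if_neg hj] at hy ⊢
          have e : comp S (F ∪ F') z = P := comp_eq hzP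
          have hy' : Reach S (F ∪ F') z y := by
            have : y ∈ comp S (F ∪ F') z := by rw [e]; exact hy
            exact this
          have h9 := comp_conn hy'
          rwa [e] at h9
      · intro j
        by_cases hj : j ≤ r
        · simp only [if_pos hj]; exact h7 j
        · simp only [if_neg hj]; exact hPb
      · refine hPcard.trans ?_
        have e : (2 * C + 1) ^ (r + 1) * C = (2 * C + 1) * ((2 * C + 1) ^ r * C) := by ring
        rw [e]
        exact Nat.mul_le_mul (Nat.le_succ _) h8

end

/-- **Carvings.**  For a finitely presented periodic group the connected finite sets with a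
carving of width `C` in all `G`-sets have uniformly bounded size. -/
theorem carving_comp {G : Type u} [Group G] [Group.IsFinitelyPresented G]
    (hper : ∀ g : G, IsOfFinOrder g) (S : Set G) (hSf : S.Finite)
    (hS : Subgroup.closure S = ⊤) (C : ℕ) :
    ∃ B : ℕ, ∀ (X : Type v) [MulAction G X] (F : Set X), Carv S C F → ∀ x ∈ F,
      (comp S F x).ncard ≤ B := by
  obtain ⟨ℓ, hℓ⟩ := chain_bound.{u, v} hper S hSf hS C
  refine ⟨(2 * C + 1) ^ ℓ * C, ?_⟩
  intro X _ F hF x hx
  obtain ⟨r, z, κ, h1, h2, h3, h4, h5, h6, h7, h8⟩ := hF.heavy x hx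
  have hr : r < ℓ := by
    by_contra hcon
    push Not at hcon
    exact hℓ X z κ h5 (fun i hi => h3 i (hi.trans_le hcon)) h2 h6 h7
  exact h8.trans (Nat.mul_le_mul_right _ (Nat.pow_le_pow_right (Nat.succ_pos _) hr.le))

/-- Finite orbits with a carving of width `C` have bounded size. -/
theorem carving_orbit {G : Type u} [Group G] [Group.IsFinitelyPresented G]
    (hper : ∀ g : G, IsOfFinOrder g) (S : Set G) (hSf : S.Finite)
    (hS : Subgroup.closure S = ⊤) (C : ℕ) :
    ∃ B : ℕ, ∀ (X : Type v) [MulAction G X] (x : X), Carv S C (MulAction.orbit G x) →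
      (MulAction.orbit G x).ncard ≤ B := by
  obtain ⟨B, hB⟩ := carving_comp.{u, v} hper S hSf hS C
  refine ⟨B, fun X _ x hx => ?_⟩
  have h := hB X (MulAction.orbit G x) hx x (MulAction.mem_orbit_self x)
  have e : comp S (MulAction.orbit G x) x = MulAction.orbit G x := by
    apply Set.Subset.antisymm (comp_subset S _ x)
    intro y hy
    exact reach_orbit hS x y hy
  rwa [e] at h

/-- Orbits that are increasing unions of sets with carvings of width `C` have bounded size. -/
theorem carving_exhaust {G : Type u} [Group G] [Group.IsFinitelyPresented G]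
    (hper : ∀ g : G, IsOfFinOrder g) (S : Set G) (hSf : S.Finite)
    (hS : Subgroup.closure S = ⊤) (C : ℕ) :
    ∃ B : ℕ, ∀ (X : Type v) [MulAction G X] (x : X) (F : ℕ → Set X), Monotone F →
      (∀ n, Carv S C (F n)) → ⋃ n, F n = MulAction.orbit G x →
        (MulAction.orbit G x).Finite ∧ (MulAction.orbit G x).ncard ≤ B := by
  obtain ⟨B, hB⟩ := carving_orbit.{u, v} hper S hSf hS C
  refine ⟨B, fun X _ x F hmono hF hU => ?_⟩
  have hfin : (MulAction.orbit G x).Finite :=
    thin_orbit hper S hSf hS x C F hmono hU (fun n => (hF n).finite) fun n => (hF n).bdry_le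
  refine ⟨hfin, hB X x ?_⟩
  have key : ∀ A : Set X, A.Finite → A ⊆ MulAction.orbit G x → ∃ m, A ⊆ F m := by
    intro A hA
    induction A, hA using Set.Finite.induction_on with
    | empty => exact fun _ => ⟨0, Set.empty_subset _⟩
    | @insert a s _ _ ih =>
      intro hsub
      obtain ⟨m, hm⟩ := ih ((Set.subset_insert a s).trans hsub)
      have ha : a ∈ ⋃ n, F n := hU ▸ hsub (Set.mem_insert a s)
      obtain ⟨k, hk⟩ := Set.mem_iUnion.1 ha
      exact ⟨max m k, Set.insert_subset (hmono (le_max_right m k) hk)
        (hm.trans (hmono (le_max_left m k)))⟩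
  obtain ⟨m, hm⟩ := key _ hfin subset_rfl
  have e : F m = MulAction.orbit G x :=
    Set.Subset.antisymm (hU ▸ Set.subset_iUnion F m) hm
  rw [← e]
  exact hF m

/-- An action whose orbits are increasing unions of sets with carvings of width `C` factors
through a finite group. -/
theorem carving_image {G : Type u} [Group G] [Group.IsFinitelyPresented G]
    (hper : ∀ g : G, IsOfFinOrder g) (S : Set G) (hSf : S.Finite)
    (hS : Subgroup.closure S = ⊤) (C : ℕ) (X : Type v) [MulAction G X]
    (hX : ∀ x : X, ∃ F : ℕ → Set X, Monotone F ∧ (∀ n, Carv S C (F n)) ∧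
      ⋃ n, F n = MulAction.orbit G x) :
    (Set.range (MulAction.toPermHom G X)).Finite := by
  obtain ⟨B, hB⟩ := carving_exhaust.{u, v} hper S hSf hS C
  obtain ⟨r, π, hπ, _⟩ := (inferInstance : Group.IsFinitelyPresented G).out
  refine finite_of_bounded π hπ (MulAction.toPermHom G X) B fun x => ?_
  obtain ⟨F, h1, h2, h3⟩ := hX x
  exact hB X x F h1 h2 h3

end Vale.Agent.P192
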