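import Mathlib
import Vale.Agent.P192.TreeAll

/-!
# P192: relative version of the gluing along a line

As `Cover.lean`, but only the moving parts of the boundaries are required to match.
-/

open scoped Pointwise

namespace Vale.Agent.P192

open Vale.Agent.P196 Vale.Agent.P196.Glue

section

variable {G X : Type*} [Group G] [MulAction G X]

/-- Data for gluing the two sides of the annulus `F' \ F`. -/
structure Glue2 (E : Set G) (M C : ℕ) (F F' : Set X) (p p' : Fin C → X) : Prop where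
  one_mem : (1 : G) ∈ E
  inv_mem : ∀ e ∈ E, e⁻¹ ∈ E
  ent : ∀ y ∈ F' \ F, ∀ e ∈ E, e • y ∈ F → e • y ∈ Set.range p
  out : ∀ y ∈ F' \ F, ∀ e ∈ E, e • y ∉ F' → y ∈ Set.range p'
  near : ∀ g ∈ E ^ M, ∀ c, g • p c ∈ F'
  far : ∀ g ∈ E ^ M, ∀ c, g • p' c ∉ F
  patt : ∀ g ∈ E ^ M, ∀ h ∈ E ^ M, ∀ c d, g • p c = h • p d ↔ g • p' c = h • p' d
  side : ∀ g ∈ E ^ M, ∀ c, g • p c ∈ F ↔ g • p' c ∈ F'

namespace Glue2

variable {E : Set G} {M C : ℕ} {F F' : Set X} {p p' : Fin C → X} {ψ ψ' : X → X}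

theorem exists_psi (D : Glue2 E M C F F' p p') :
    ∃ ψ : X → X, ∀ g ∈ E ^ M, ∀ c, ψ (g • p c) = g • p' c := by
  classical
  let q : (↥(E ^ M)) × Fin C → X := fun a => (a.1 : G) • p a.2
  let q' : (↥(E ^ M)) × Fin C → X := fun a => (a.1 : G) • p' a.2
  have hf : q'.FactorsThrough q := by
    intro a b hab
    exact (D.patt _ a.1.2 _ b.1.2 _ _).1 hab
  refine ⟨Function.extend q q' id, fun g hg c => ?_⟩
  exact hf.extend_apply id (⟨g, hg⟩, c)

theorem exists_psi' (D : Glue2 E M C F F' p p') :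
    ∃ ψ' : X → X, ∀ g ∈ E ^ M, ∀ c, ψ' (g • p' c) = g • p c := by
  classical
  let q : (↥(E ^ M)) × Fin C → X := fun a => (a.1 : G) • p a.2
  let q' : (↥(E ^ M)) × Fin C → X := fun a => (a.1 : G) • p' a.2
  have hf : q.FactorsThrough q' := by
    intro a b hab
    exact (D.patt _ a.1.2 _ b.1.2 _ _).2 hab
  refine ⟨Function.extend q' q id, fun g hg c => ?_⟩
  exact hf.extend_apply id (⟨g, hg⟩, c)

theorem fold_eq (D : Glue2 E M C F F' p p') (hψ : ∀ g ∈ E ^ M, ∀ c, ψ (g • p c) = g • p' c)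
    (hψ' : ∀ g ∈ E ^ M, ∀ c, ψ' (g • p' c) = g • p c) {g : G} (hg : g ∈ E ^ M) (c : Fin C) :
    fold F F' ψ ψ' (g • p c) = fold F F' ψ ψ' (g • p' c) := by
  by_cases h : g • p c ∈ F
  · have h2 : g • p' c ∈ F' := (D.side g hg c).1 h
    rw [fold_in h, hψ g hg c, fold_mid (D.far g hg c) h2]
  · have h2 : g • p' c ∉ F' := fun h2 => h ((D.side g hg c).2 h2)
    rw [fold_mid h (D.near g hg c), fold_out (D.far g hg c) h2, hψ' g hg c]

theorem fold_mem (D : Glue2 E M C F F' p p') (hψ : ∀ g ∈ E ^ M, ∀ c, ψ (g • p c) = g • p' c)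
    {g : G} (hg : g ∈ E ^ M) (c : Fin C) :
    fold F F' ψ ψ' (g • p c) ∈ F' \ F := by
  by_cases h : g • p c ∈ F
  · have h2 : g • p' c ∈ F' := (D.side g hg c).1 h
    rw [fold_in h, hψ g hg c]
    exact ⟨h2, D.far g hg c⟩
  · rw [fold_mid h (D.near g hg c)]
    exact ⟨D.near g hg c, h⟩

theorem cases (D : Glue2 E M C F F' p p') :
    ∀ (k : ℕ) (w : G), w ∈ E ^ k → ∀ y ∈ F' \ F,
    (w • y ∈ F' \ F) ∨ (∃ g ∈ E ^ k, ∃ c, w • y = g • p c) ∨
      (∃ g ∈ E ^ k, ∃ c, w • y = g • p' c) := by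
  intro k
  induction k with
  | zero =>
    intro w hw y hy
    simp only [pow_zero, Set.mem_one] at hw
    subst hw
    left
    rwa [one_smul]
  | succ k ih =>
    intro w hw y hy
    have hw0 := hw
    rw [pow_succ] at hw
    obtain ⟨w', hw', e, he, rfl⟩ := Set.mem_mul.1 hw
    have hmono := Set.pow_subset_pow_right D.one_mem (Nat.le_succ k)
    by_cases h1 : e • y ∈ F
    · obtain ⟨c, hc⟩ := D.ent y hy e he h1
      right; left
      exact ⟨w', hmono hw', c, by rw [mul_smul, hc]⟩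
    · by_cases h2 : e • y ∈ F'
      · have h3 : (w' * e) • y = w' • (e • y) := mul_smul _ _ _
        rw [h3]
        rcases ih w' hw' (e • y) ⟨h2, h1⟩ with h | ⟨g, hg, c, h⟩ | ⟨g, hg, c, h⟩
        · exact Or.inl h
        · exact Or.inr (Or.inl ⟨g, hmono hg, c, h⟩)
        · exact Or.inr (Or.inr ⟨g, hmono hg, c, h⟩)
      · obtain ⟨c, hc⟩ := D.out y hy e he h2
        right; right
        exact ⟨w' * e, hw0, c, by rw [hc]⟩

theorem fold_smul_mem (D : Glue2 E M C F F' p p')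
    (hψ : ∀ g ∈ E ^ M, ∀ c, ψ (g • p c) = g • p' c)
    (hψ' : ∀ g ∈ E ^ M, ∀ c, ψ' (g • p' c) = g • p c) {k : ℕ} (hk : k ≤ M)
    {w : G} (hw : w ∈ E ^ k) {y : X} (hy : y ∈ F' \ F) :
    fold F F' ψ ψ' (w • y) ∈ F' \ F := by
  rcases D.cases k w hw y hy with h | ⟨g, hg, c, h⟩ | ⟨g, hg, c, h⟩
  · rwa [fold_mid h.2 h.1]
  · rw [h]
    exact D.fold_mem hψ (Set.pow_subset_pow_right D.one_mem hk hg) c
  · have hg' := Set.pow_subset_pow_right D.one_mem hk hg
    rw [h, ← D.fold_eq hψ hψ' hg' c]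
    exact D.fold_mem hψ hg' c

theorem shadow (D : Glue2 E M C F F' p p')
    (hψ : ∀ g ∈ E ^ M, ∀ c, ψ (g • p c) = g • p' c)
    (hψ' : ∀ g ∈ E ^ M, ∀ c, ψ' (g • p' c) = g • p c) {k : ℕ} (hk : k + 1 ≤ M)
    {w : G} (hw : w ∈ E ^ k) {y : X} (hy : y ∈ F' \ F) {e : G} (he : e ∈ E) :
    fold F F' ψ ψ' (e • fold F F' ψ ψ' (w • y)) = fold F F' ψ ψ' (e • w • y) := by
  have hkM : k ≤ M := (Nat.le_succ k).trans hk
  have heg : ∀ g ∈ E ^ k, e * g ∈ E ^ M := by
    intro g hg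
    refine Set.pow_subset_pow_right D.one_mem hk ?_
    rw [pow_succ']
    exact Set.mul_mem_mul he hg
  rcases D.cases k w hw y hy with h | ⟨g, hg, c, h⟩ | ⟨g, hg, c, h⟩
  · rw [fold_mid h.2 h.1]
  · have hgM := Set.pow_subset_pow_right D.one_mem hkM hg
    rw [h]
    by_cases h2 : g • p c ∈ F
    · rw [fold_in h2, hψ g hgM c, ← mul_smul, ← mul_smul, D.fold_eq hψ hψ' (heg g hg) c]
    · rw [fold_mid h2 (D.near g hgM c)]
  · have hgM := Set.pow_subset_pow_right D.one_mem hkM hg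
    rw [h]
    by_cases h2 : g • p' c ∈ F'
    · rw [fold_mid (D.far g hgM c) h2]
    · rw [fold_out (D.far g hgM c) h2, hψ' g hgM c, ← mul_smul, ← mul_smul,
        D.fold_eq hψ hψ' (heg g hg) c]

theorem lev_eq (D : Glue2 E M C F F' p p') {g : G} (hg : g ∈ E ^ M) (c : Fin C) :
    lev F F' (g • p' c) = lev F F' (g • p c) + 1 := by
  by_cases h : g • p c ∈ F
  · have h2 : g • p' c ∈ F' := (D.side g hg c).1 h
    rw [lev_in h, lev_mid (D.far g hg c) h2]
    norm_num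
  · have h2 : g • p' c ∉ F' := fun h2 => h ((D.side g hg c).2 h2)
    rw [lev_mid h (D.near g hg c), lev_out (D.far g hg c) h2]
    norm_num

theorem shadow_lev (D : Glue2 E M C F F' p p')
    (hψ : ∀ g ∈ E ^ M, ∀ c, ψ (g • p c) = g • p' c)
    (hψ' : ∀ g ∈ E ^ M, ∀ c, ψ' (g • p' c) = g • p c) {k : ℕ} (hk : k + 1 ≤ M)
    {w : G} (hw : w ∈ E ^ k) {y : X} (hy : y ∈ F' \ F) {e : G} (he : e ∈ E) :
    lev F F' (e • fold F F' ψ ψ' (w • y)) + lev F F' (w • y) = lev F F' (e • w • y) := by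
  have hkM : k ≤ M := (Nat.le_succ k).trans hk
  have heg : ∀ g ∈ E ^ k, e * g ∈ E ^ M := by
    intro g hg
    refine Set.pow_subset_pow_right D.one_mem hk ?_
    rw [pow_succ']
    exact Set.mul_mem_mul he hg
  rcases D.cases k w hw y hy with h | ⟨g, hg, c, h⟩ | ⟨g, hg, c, h⟩
  · rw [fold_mid h.2 h.1, lev_mid h.2 h.1, add_zero]
  · have hgM := Set.pow_subset_pow_right D.one_mem hkM hg
    rw [h]
    by_cases h2 : g • p c ∈ F
    · have h3 := lev_eq D (heg g hg) c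
      rw [fold_in h2, hψ g hgM c, lev_in h2, ← mul_smul, ← mul_smul, h3]
      ring
    · have h3 : g • p c ∈ F' := D.near g hgM c
      rw [fold_mid h2 h3, lev_mid h2 h3, add_zero]
  · have hgM := Set.pow_subset_pow_right D.one_mem hkM hg
    rw [h]
    by_cases h2 : g • p' c ∈ F'
    · rw [fold_mid (D.far g hgM c) h2, lev_mid (D.far g hgM c) h2, add_zero]
    · have h3 := lev_eq D (heg g hg) c
      rw [fold_out (D.far g hgM c) h2, hψ' g hgM c, lev_out (D.far g hgM c) h2, ← mul_smul,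
        ← mul_smul, h3]

/-- The permutation of `(F' \ F) × ℤ` given by a generator. -/
noncomputable def permZ (D : Glue2 E M C F F' p p') (ψ ψ' : X → X)
    (hψ : ∀ g ∈ E ^ M, ∀ c, ψ (g • p c) = g • p' c)
    (hψ' : ∀ g ∈ E ^ M, ∀ c, ψ' (g • p' c) = g • p c) (hM : 2 ≤ M)
    (e : G) (he : e ∈ E) : Equiv.Perm (↥(F' \ F) × ℤ) where
  toFun q := (⟨fold F F' ψ ψ' (e • (q.1 : X)),
    D.fold_smul_mem hψ hψ' (k := 1) (by omega) (by simpa using he) q.1.2⟩,
      q.2 + lev F F' (e • (q.1 : X)))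
  invFun q := (⟨fold F F' ψ ψ' (e⁻¹ • (q.1 : X)),
    D.fold_smul_mem hψ hψ' (k := 1) (by omega) (by simpa using D.inv_mem e he) q.1.2⟩,
      q.2 + lev F F' (e⁻¹ • (q.1 : X)))
  left_inv q := by
    refine Prod.ext (Subtype.ext ?_) ?_
    · simp only
      rw [D.shadow hψ hψ' (k := 1) hM (by simpa using he) q.1.2 (D.inv_mem e he), inv_smul_smul,
        fold_mid q.1.2.2 q.1.2.1]
    · simp only
      have h := shadow_lev D hψ hψ' (k := 1) hM (by simpa using he) q.1.2 (D.inv_mem e he)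
      rw [inv_smul_smul, lev_mid q.1.2.2 q.1.2.1] at h
      linarith
  right_inv q := by
    refine Prod.ext (Subtype.ext ?_) ?_
    · simp only
      rw [D.shadow hψ hψ' (k := 1) hM (by simpa using D.inv_mem e he) q.1.2 he, smul_inv_smul,
        fold_mid q.1.2.2 q.1.2.1]
    · simp only
      have h := shadow_lev D hψ hψ' (k := 1) hM (by simpa using D.inv_mem e he) q.1.2 he
      rw [smul_inv_smul, lev_mid q.1.2.2 q.1.2.1] at h
      linarith

theorem permZ_apply (D : Glue2 E M C F F' p p')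
    (hψ : ∀ g ∈ E ^ M, ∀ c, ψ (g • p c) = g • p' c)
    (hψ' : ∀ g ∈ E ^ M, ∀ c, ψ' (g • p' c) = g • p c) (hM : 2 ≤ M)
    (e : G) (he : e ∈ E) (q : ↥(F' \ F) × ℤ) :
    (((permZ D ψ ψ' hψ hψ' hM e he q).1 : ↥(F' \ F)) : X) = fold F F' ψ ψ' (e • (q.1 : X)) ∧
      (permZ D ψ ψ' hψ hψ' hM e he q).2 = q.2 + lev F F' (e • (q.1 : X)) := ⟨rfl, rfl⟩

theorem permZ_inv_apply (D : Glue2 E M C F F' p p')
    (hψ : ∀ g ∈ E ^ M, ∀ c, ψ (g • p c) = g • p' c)
    (hψ' : ∀ g ∈ E ^ M, ∀ c, ψ' (g • p' c) = g • p c) (hM : 2 ≤ M)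
    (e : G) (he : e ∈ E) (q : ↥(F' \ F) × ℤ) :
    ((((permZ D ψ ψ' hψ hψ' hM e he)⁻¹ q).1 : ↥(F' \ F)) : X) =
        fold F F' ψ ψ' (e⁻¹ • (q.1 : X)) ∧
      ((permZ D ψ ψ' hψ hψ' hM e he)⁻¹ q).2 = q.2 + lev F F' (e⁻¹ • (q.1 : X)) := ⟨rfl, rfl⟩

/-- Evaluating a word of length at most `M`. -/
theorem wordZ (D : Glue2 E M C F F' p p')
    (hψ : ∀ g ∈ E ^ M, ∀ c, ψ (g • p c) = g • p' c)
    (hψ' : ∀ g ∈ E ^ M, ∀ c, ψ' (g • p' c) = g • p c) (hM : 2 ≤ M)
    {n : ℕ} (a : Fin n → G) (ha : ∀ i, a i ∈ E) :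
    ∀ L : List (Fin n × Bool), L.length ≤ M →
      (FreeGroup.lift a (FreeGroup.mk L) ∈ E ^ L.length) ∧
      ∀ q : ↥(F' \ F) × ℤ,
      (((FreeGroup.lift (fun i => permZ D ψ ψ' hψ hψ' hM (a i) (ha i)) (FreeGroup.mk L) q).1 :
        ↥(F' \ F)) : X) = fold F F' ψ ψ' (FreeGroup.lift a (FreeGroup.mk L) • (q.1 : X)) ∧
      (FreeGroup.lift (fun i => permZ D ψ ψ' hψ hψ' hM (a i) (ha i)) (FreeGroup.mk L) q).2 =
        q.2 + lev F F' (FreeGroup.lift a (FreeGroup.mk L) • (q.1 : X)) := by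
  intro L
  induction L with
  | nil =>
    intro _
    refine ⟨by simp [FreeGroup.lift_mk], fun q => ?_⟩
    simp [FreeGroup.lift_mk, fold_mid q.1.2.2 q.1.2.1, lev_mid q.1.2.2 q.1.2.1]
  | cons x L ih =>
    intro hL
    rw [List.length_cons] at hL
    obtain ⟨ih1, ih2⟩ := ih (by omega)
    obtain ⟨i, s⟩ := x
    have hai : a i ∈ E := ha i
    cases s with
    | false =>
      constructor
      · rw [FreeGroup.lift_mk, List.map_cons, List.prod_cons, List.length_cons, pow_succ']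
        refine Set.mul_mem_mul (D.inv_mem _ hai) ?_
        rw [FreeGroup.lift_mk] at ih1
        exact ih1
      · intro q
        obtain ⟨h1, h2⟩ := ih2 q
        have hs := D.shadow hψ hψ' hL ih1 q.1.2 (D.inv_mem _ hai)
        have hl := shadow_lev D hψ hψ' hL ih1 q.1.2 (D.inv_mem _ hai)
        have e1 : FreeGroup.lift (fun i => permZ D ψ ψ' hψ hψ' hM (a i) (ha i))
            (FreeGroup.mk ((i, false) :: L)) = (permZ D ψ ψ' hψ hψ' hM (a i) (ha i))⁻¹ *
              FreeGroup.lift (fun i => permZ D ψ ψ' hψ hψ' hM (a i) (ha i))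
                (FreeGroup.mk L) := by
          rw [FreeGroup.lift_mk, FreeGroup.lift_mk, List.map_cons, List.prod_cons]
          rfl
        have e2 : FreeGroup.lift a (FreeGroup.mk ((i, false) :: L)) =
            (a i)⁻¹ * FreeGroup.lift a (FreeGroup.mk L) := by
          rw [FreeGroup.lift_mk, FreeGroup.lift_mk, List.map_cons, List.prod_cons]
          rfl
        have h3 := permZ_inv_apply D hψ hψ' hM (a i) (ha i)
          (FreeGroup.lift (fun i => permZ D ψ ψ' hψ hψ' hM (a i) (ha i)) (FreeGroup.mk L) q)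
        rw [e1, e2, Equiv.Perm.mul_apply, h3.1, h3.2, h1, h2, mul_smul, hs]
        refine ⟨rfl, ?_⟩
        rw [← hl]; ring
    | true =>
      constructor
      · rw [FreeGroup.lift_mk, List.map_cons, List.prod_cons, List.length_cons, pow_succ']
        refine Set.mul_mem_mul hai ?_
        rw [FreeGroup.lift_mk] at ih1
        exact ih1
      · intro q
        obtain ⟨h1, h2⟩ := ih2 q
        have hs := D.shadow hψ hψ' hL ih1 q.1.2 hai
        have hl := shadow_lev D hψ hψ' hL ih1 q.1.2 hai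
        have e1 : FreeGroup.lift (fun i => permZ D ψ ψ' hψ hψ' hM (a i) (ha i))
            (FreeGroup.mk ((i, true) :: L)) = (permZ D ψ ψ' hψ hψ' hM (a i) (ha i)) *
              FreeGroup.lift (fun i => permZ D ψ ψ' hψ hψ' hM (a i) (ha i))
                (FreeGroup.mk L) := by
          rw [FreeGroup.lift_mk, FreeGroup.lift_mk, List.map_cons, List.prod_cons]
          rfl
        have e2 : FreeGroup.lift a (FreeGroup.mk ((i, true) :: L)) =
            a i * FreeGroup.lift a (FreeGroup.mk L) := by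
          rw [FreeGroup.lift_mk, FreeGroup.lift_mk, List.map_cons, List.prod_cons]
          rfl
        have h3 := permZ_apply D hψ hψ' hM (a i) (ha i)
          (FreeGroup.lift (fun i => permZ D ψ ψ' hψ hψ' hM (a i) (ha i)) (FreeGroup.mk L) q)
        rw [e1, e2, Equiv.Perm.mul_apply, h3.1, h3.2, h1, h2, mul_smul, hs]
        refine ⟨rfl, ?_⟩
        rw [← hl]; ring

/-- From glue data to an action of the group on `(F' \ F) × ℤ`, commuting with the shift. -/
theorem exists_cover {n : ℕ} (π : FreeGroup (Fin n) →* G) (hπ : Function.Surjective π)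
    (R : Set (FreeGroup (Fin n))) (hR : Subgroup.normalClosure R = π.ker)
    (hE : ∀ i, π (FreeGroup.of i) ∈ E) (hM : 2 ≤ M)
    (hRM : ∀ w ∈ R, w.toWord.length ≤ M) (D : Glue2 E M C F F' p p') :
    ∃ (f : G →* Equiv.Perm (↥(F' \ F) × ℤ)) (φ : X → X),
      (∀ (g : G) (y : ↥(F' \ F)) (m : ℤ),
        f g (y, m) = ((f g (y, 0)).1, (f g (y, 0)).2 + m)) ∧
      (∀ z, z ∉ F → z ∈ F' → φ z = z) ∧
      ∀ w : FreeGroup (Fin n), w.toWord.length ≤ M → ∀ q : ↥(F' \ F) × ℤ,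
        (((f (π w) q).1 : ↥(F' \ F)) : X) = φ (π w • (q.1 : X)) ∧
          (f (π w) q).2 = q.2 + lev F F' (π w • (q.1 : X)) := by
  obtain ⟨ψ, hψ⟩ := D.exists_psi
  obtain ⟨ψ', hψ'⟩ := D.exists_psi'
  let a : Fin n → G := fun i => π (FreeGroup.of i)
  let Φ : FreeGroup (Fin n) →* Equiv.Perm (↥(F' \ F) × ℤ) :=
    FreeGroup.lift (fun i => permZ D ψ ψ' hψ hψ' hM (a i) (hE i))
  have hπa : FreeGroup.lift a = π := by
    ext i
    simp [a]
  have hword : ∀ w : FreeGroup (Fin n), w.toWord.length ≤ M → ∀ q : ↥(F' \ F) × ℤ,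
      (((Φ w q).1 : ↥(F' \ F)) : X) = fold F F' ψ ψ' (π w • (q.1 : X)) ∧
        (Φ w q).2 = q.2 + lev F F' (π w • (q.1 : X)) := by
    intro w hw q
    have h := (wordZ D hψ hψ' hM a hE w.toWord hw).2 q
    rw [FreeGroup.mk_toWord, hπa] at h
    exact h
  have hker : π.ker ≤ Φ.ker := by
    rw [← hR]
    apply Subgroup.normalClosure_le_normal
    intro w hw
    rw [SetLike.mem_coe, MonoidHom.mem_ker]
    have hw1 : π w = 1 := by
      have : w ∈ π.ker := hR ▸ Subgroup.subset_normalClosure hw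
      exact this
    apply Equiv.ext
    intro q
    have h := hword w (hRM w hw) q
    rw [hw1, one_smul, fold_mid q.1.2.2 q.1.2.1, lev_mid q.1.2.2 q.1.2.1, add_zero] at h
    exact Prod.ext (Subtype.ext h.1) h.2
  let f : G →* Equiv.Perm (↥(F' \ F) × ℤ) := MonoidHom.liftOfSurjective π hπ ⟨Φ, hker⟩
  have hf : ∀ w, f (π w) = Φ w := by
    intro w
    exact MonoidHom.liftOfRightInverse_comp_apply π _ _ ⟨Φ, hker⟩ w
  -- the shift
  let T : ℤ → Equiv.Perm (↥(F' \ F) × ℤ) := fun m =>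
    { toFun := fun q => (q.1, q.2 + m)
      invFun := fun q => (q.1, q.2 - m)
      left_inv := fun q => by simp
      right_inv := fun q => by simp }
  have hcomm : ∀ (w : FreeGroup (Fin n)) (m : ℤ), Φ w * T m = T m * Φ w := by
    intro w m
    induction w using FreeGroup.induction_on with
    | C1 => simp
    | of i =>
      apply Equiv.ext
      intro q
      have e : Φ (FreeGroup.of i) = permZ D ψ ψ' hψ hψ' hM (a i) (hE i) := by simp [Φ]
      change Φ (FreeGroup.of i) (T m q) = T m (Φ (FreeGroup.of i) q)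
      rw [e]
      refine Prod.ext rfl ?_
      change q.2 + m + lev F F' (a i • (q.1 : X)) = q.2 + lev F F' (a i • (q.1 : X)) + m
      ring
    | inv_of i h =>
      rw [map_inv, inv_mul_eq_iff_eq_mul, ← mul_assoc, h, mul_assoc, mul_inv_cancel, mul_one]
    | mul x y hx hy => rw [map_mul, mul_assoc, hy, ← mul_assoc, hx, mul_assoc]
  refine ⟨f, fold F F' ψ ψ', fun g y m => ?_, fun z h h' => fold_mid h h', fun w hw q => ?_⟩
  · obtain ⟨w, rfl⟩ := hπ g
    rw [hf]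
    have h := Equiv.ext_iff.1 (hcomm w m) (y, 0)
    change Φ w (y, 0 + m) = ((Φ w (y, 0)).1, (Φ w (y, 0)).2 + m) at h
    rw [zero_add] at h
    exact h
  · rw [hf]
    exact hword w hw q

end Glue2

end

end Vale.Agent.P192
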