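import Mathlib
import Vale.Agent.P192.Cover2

/-!
# P192: chains of connected finite sets with bounded boundaries
-/

open scoped Pointwise

namespace Vale.Agent.P192

open Vale.Agent.P196 Vale.Agent.P196.Glue

section

variable {G X : Type*} [Group G] [MulAction G X]

/-- No relative glue data if every point of the annulus is connected inside `F'` with a point
of `F`. -/
theorem no_glue2 (hper : ∀ g : G, IsOfFinOrder g) {S : Set G}
    {n : ℕ} (π : FreeGroup (Fin n) →* G) (hπ : Function.Surjective π)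
    (R : Set (FreeGroup (Fin n))) (hR : Subgroup.normalClosure R = π.ker)
    {E : Set G} (hE : ∀ i, π (FreeGroup.of i) ∈ E) {M C : ℕ} (hM : 2 ≤ M)
    (hRM : ∀ w ∈ R, w.toWord.length ≤ M)
    (hSM : ∀ s : G, s ∈ S ∨ s⁻¹ ∈ S → ∃ w : FreeGroup (Fin n), w.toWord.length ≤ M ∧ π w = s)
    {F F' : Set X} (x : X) (hx : x ∈ F) (hconn : ∀ y ∈ F' \ F, Reach S F' x y)
    (hfin : (F' \ F).Finite) {p p' : Fin C → X} (D : Glue2 E M C F F' p p')
    (hne : (F' \ F).Nonempty) : False := by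
  classical
  obtain ⟨f, φ, hshift, hmid, hwd⟩ := Glue2.exists_cover π hπ R hR hE hM hRM D
  have hYfin : Finite ↥(F' \ F) := hfin.to_subtype
  have hrange := finite_image hper f hshift
  -- a starting point
  obtain ⟨y0, hc1, hc2⟩ := hne
  -- descending by one level
  have hdesc : ∀ y : X, Reach S F' x y → ∀ (h1 : y ∈ F') (h2 : y ∉ F) (m : ℤ),
      ∃ g : G, (f g ((⟨y, h1, h2⟩ : ↥(F' \ F)), m)).2 < m := by
    intro y hy
    induction hy with
    | base _ => intro _ h2; exact absurd hx h2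
    | step y s hy hs hsy ih =>
      intro h1 h2 m
      have hs' : s⁻¹ ∈ S ∨ (s⁻¹)⁻¹ ∈ S := by
        rcases hs with h | h
        · exact Or.inr (by rwa [inv_inv])
        · exact Or.inl h
      obtain ⟨w, hw, hws⟩ := hSM s⁻¹ hs'
      have hq := hwd w hw ((⟨s • y, h1, h2⟩ : ↥(F' \ F)), m)
      rw [hws] at hq
      simp only [inv_smul_smul] at hq
      by_cases hin : y ∈ F
      · refine ⟨s⁻¹, ?_⟩
        rw [hq.2, lev_in hin]
        linarith
      · have hin' : y ∈ F' := hy.mem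
        rw [lev_mid hin hin', add_zero, hmid _ hin hin'] at hq
        obtain ⟨g', hg'⟩ := ih hin' hin m
        refine ⟨g' * s⁻¹, ?_⟩
        rw [map_mul, Equiv.Perm.mul_apply]
        have e : f s⁻¹ ((⟨s • y, h1, h2⟩ : ↥(F' \ F)), m) = (⟨y, hin', hin⟩, m) :=
          Prod.ext (Subtype.ext hq.1) hq.2
        rw [e]
        exact hg'
  have hdown : ∀ m : ℕ, ∃ g : G, (f g (⟨y0, hc1, hc2⟩, 0)).2 ≤ -(m : ℤ) := by
    intro m
    induction m with
    | zero => exact ⟨1, by simp⟩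
    | succ m ih =>
      obtain ⟨g, hg⟩ := ih
      obtain ⟨g', hg'⟩ := hdesc _ (hconn _ (f g (⟨y0, hc1, hc2⟩, 0)).1.2)
        (f g (⟨y0, hc1, hc2⟩, 0)).1.2.1 (f g (⟨y0, hc1, hc2⟩, 0)).1.2.2
        (f g (⟨y0, hc1, hc2⟩, 0)).2
      refine ⟨g' * g, ?_⟩
      rw [map_mul, Equiv.Perm.mul_apply]
      have e : ((⟨((f g (⟨y0, hc1, hc2⟩, 0)).1 : X), (f g (⟨y0, hc1, hc2⟩, 0)).1.2.1,
          (f g (⟨y0, hc1, hc2⟩, 0)).1.2.2⟩ : ↥(F' \ F)), (f g (⟨y0, hc1, hc2⟩, 0)).2) =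
          f g (⟨y0, hc1, hc2⟩, 0) := rfl
      rw [e] at hg'
      push_cast
      linarith
  -- the set of levels is finite
  have hlev : ((fun u : Equiv.Perm (↥(F' \ F) × ℤ) => (u (⟨y0, hc1, hc2⟩, 0)).2) ''
      (Set.range f)).Finite := hrange.image _
  obtain ⟨b, hb⟩ := hlev.bddBelow
  obtain ⟨g, hg⟩ := hdown (b.natAbs + 1)
  have h1 : b ≤ (f g (⟨y0, hc1, hc2⟩, 0)).2 := hb ⟨f g, ⟨g, rfl⟩, rfl⟩
  have h2 : -(b.natAbs : ℤ) ≤ b := by
    rw [← Int.abs_eq_natAbs]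
    exact neg_abs_le b
  push_cast at hg
  push_cast at h2
  linarith


end

/-- Families of intervals with bounded overlap: among many indices one finds `K + 1` such that
each interval containing two consecutive ones contains all. -/
theorem ramsey (K C : ℕ) : ∃ ℓ : ℕ, ∀ {P : Type*} (Cr : ℕ → Set P) (s : ℕ),
    (∀ i j k, i ≤ j → j ≤ k → ∀ e, e ∈ Cr i → e ∈ Cr k → e ∈ Cr j) →
    (∀ i, s ≤ i → i ≤ s + ℓ → (Cr i).Finite ∧ (Cr i).ncard ≤ C) →
    ∃ φ : ℕ → ℕ, (∀ a b, a < b → φ a < φ b) ∧ (∀ a, a ≤ K → s ≤ φ a ∧ φ a ≤ s + ℓ) ∧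
      ∀ e, ∀ a, a < K → e ∈ Cr (φ a) → e ∈ Cr (φ (a + 1)) → ∀ j, j ≤ K → e ∈ Cr (φ j) := by
  induction C with
  | zero =>
    refine ⟨K, fun {P} Cr s _ hC => ⟨fun a => s + a, fun a b h => by beta_reduce; omega,
      fun a ha => by beta_reduce; omega, fun e a ha he => ?_⟩⟩
    have h1 := hC (s + a) (by omega) (by omega)
    have h2 : (Cr (s + a)) = ∅ := by
      rw [← Set.ncard_eq_zero h1.1]
      omega
    rw [h2] at he
    exact absurd he (Set.notMem_empty e)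
  | succ C ih =>
    obtain ⟨ℓ, hℓ⟩ := ih
    refine ⟨(K + 1) * (ℓ + 1), fun {P} Cr s hint hC => ?_⟩
    by_cases hlong : ∃ t, s ≤ t ∧ t + ℓ ≤ s + (K + 1) * (ℓ + 1) ∧ ∃ e, e ∈ Cr t ∧ e ∈ Cr (t + ℓ)
    · obtain ⟨t, ht1, ht2, e, he1, he2⟩ := hlong
      have hall : ∀ i, t ≤ i → i ≤ t + ℓ → e ∈ Cr i := fun i h1 h2 =>
        hint t i (t + ℓ) h1 h2 e he1 he2
      obtain ⟨φ, h1, h2, h3⟩ := hℓ (fun i => Cr i \ {e}) t
        (fun i j k hij hjk e' h h' => ⟨hint i j k hij hjk e' h.1 h'.1, h.2⟩)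
        (fun i hi1 hi2 => by
          have h4 := hC i (by omega) (by omega)
          refine ⟨h4.1.subset Set.sdiff_subset, ?_⟩
          have h5 := Set.ncard_sdiff_singleton_of_mem (hall i hi1 hi2)
          rw [h5]
          omega)
      refine ⟨φ, h1, fun a ha => ?_, fun e' a ha h4 h5 j hj => ?_⟩
      · have := h2 a ha
        omega
      · by_cases hee : e' = e
        · rw [hee]
          exact hall _ (h2 j hj).1 (h2 j hj).2
        · exact (h3 e' a ha ⟨h4, hee⟩ ⟨h5, hee⟩ j hj).1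
    · push Not at hlong
      refine ⟨fun a => s + a * (ℓ + 1), fun a b h => ?_, fun a ha => ?_, fun e a ha h4 h5 => ?_⟩
      · have : a * (ℓ + 1) < b * (ℓ + 1) := Nat.mul_lt_mul_of_pos_right h (by omega)
        beta_reduce
        omega
      · have : a * (ℓ + 1) ≤ (K + 1) * (ℓ + 1) := Nat.mul_le_mul_right _ (by omega)
        beta_reduce
        omega
      · exfalso
        have hle : (a + 1) * (ℓ + 1) ≤ (K + 1) * (ℓ + 1) := Nat.mul_le_mul_right _ (by omega)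
        have hexp : (a + 1) * (ℓ + 1) = a * (ℓ + 1) + ℓ + 1 := by ring
        refine hlong (s + a * (ℓ + 1)) (by omega) (by omega) e h4 ?_
        refine hint (s + a * (ℓ + 1)) _ (s + (a + 1) * (ℓ + 1)) (by omega) (by omega) e h4 ?_
        exact h5

end Vale.Agent.P192
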