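import Mathlib

/-!
# P192: restrictions on the finite presentations of periodic groups

Let `G = ⟨x₁, …, xₙ | r₁ ^ k₁, …, rₘ ^ kₘ⟩` be periodic, `π : G → Q` a finite quotient and `V` a
finite-dimensional representation of `Q` in characteristic zero. Then
`(n - 1) dim V + dim V^Q ≤ ∑ⱼ dim V^(π rⱼ)`.

Proof: consider the affine actions `xᵢ · f = π(xᵢ) f + vᵢ` of the free group on `V`.
-/

open scoped Classical

namespace Vale.Agent.P192

/-- The relators `rⱼ ^ kⱼ`. -/
def relators {n m : ℕ} (r : Fin m → FreeGroup (Fin n)) (k : Fin m → ℕ) :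
    Set (FreeGroup (Fin n)) :=
  Set.range fun j => r j ^ k j

/-- The vectors fixed by one element. -/
def fixed {F Q V : Type*} [Field F] [Group Q] [AddCommGroup V] [Module F V]
    (ρ : Representation F Q V) (q : Q) : Submodule F V where
  carrier := {v | ρ q v = v}
  add_mem' := fun {a b} ha hb => by
    show ρ q (a + b) = a + b
    rw [map_add, show ρ q a = a from ha, show ρ q b = b from hb]
  zero_mem' := map_zero _
  smul_mem' := fun c a ha => by
    show ρ q (c • a) = c • a
    rw [map_smul, show ρ q a = a from ha]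

namespace Pres

section Affine

variable {F Q V : Type*} [Field F] [Group Q] [AddCommGroup V] [Module F V]
  (ρ : Representation F Q V)

theorem act_inv (q : Q) (f : V) : ρ q⁻¹ (ρ q f) = f := by
  rw [← Module.End.mul_apply, ← map_mul, inv_mul_cancel, map_one, Module.End.one_apply]

theorem act_inv' (q : Q) (f : V) : ρ q (ρ q⁻¹ f) = f := by
  rw [← Module.End.mul_apply, ← map_mul, mul_inv_cancel, map_one, Module.End.one_apply]

/-- The affine permutation `f ↦ q f + v`. -/
def aff (q : Q) (v : V) : Equiv.Perm V where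
  toFun f := ρ q f + v
  invFun f := ρ q⁻¹ (f - v)
  left_inv f := by
    show ρ q⁻¹ (ρ q f + v - v) = f
    rw [add_sub_cancel_right, act_inv]
  right_inv f := by
    show ρ q (ρ q⁻¹ (f - v)) + v = f
    rw [act_inv', sub_add_cancel]

theorem aff_apply (q : Q) (v f : V) : aff ρ q v f = ρ q f + v := rfl

variable {n : ℕ}

/-- The affine action of the free group. -/
def A (p : FreeGroup (Fin n) →* Q) (v : Fin n → V) : FreeGroup (Fin n) →* Equiv.Perm V :=
  FreeGroup.lift fun i => aff ρ (p (FreeGroup.of i)) (v i)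

theorem A_of (p : FreeGroup (Fin n) →* Q) (v : Fin n → V) (i : Fin n) :
    A ρ p v (FreeGroup.of i) = aff ρ (p (FreeGroup.of i)) (v i) := FreeGroup.lift_apply_of

theorem exists_D (p : FreeGroup (Fin n) →* Q) (w : FreeGroup (Fin n)) :
    ∃ D : (Fin n → V) →ₗ[F] V, ∀ v f, A ρ p v w f = ρ (p w) f + D v := by
  induction w using FreeGroup.induction_on with
  | C1 =>
    refine ⟨0, fun v f => ?_⟩
    rw [map_one, map_one, map_one, Module.End.one_apply, Equiv.Perm.one_apply,
      LinearMap.zero_apply, add_zero]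
  | of i =>
    refine ⟨LinearMap.proj i, fun v f => ?_⟩
    rw [A_of, aff_apply, LinearMap.proj_apply]
  | inv_of i _ =>
    refine ⟨-(ρ (p (FreeGroup.of i))⁻¹).comp (LinearMap.proj i), fun v f => ?_⟩
    rw [map_inv, map_inv, A_of]
    show ρ (p (FreeGroup.of i))⁻¹ (f - v i) = _
    rw [map_sub, LinearMap.neg_apply, LinearMap.comp_apply, LinearMap.proj_apply, sub_eq_add_neg]
  | mul x y hx hy =>
    obtain ⟨D₁, h₁⟩ := hx
    obtain ⟨D₂, h₂⟩ := hy
    refine ⟨(ρ (p x)).comp D₂ + D₁, fun v f => ?_⟩
    rw [map_mul, map_mul, Equiv.Perm.mul_apply, h₂, h₁, map_add, map_mul, Module.End.mul_apply,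
      LinearMap.add_apply, LinearMap.comp_apply, add_assoc]

/-- The translation part, linear in `v`. -/
noncomputable def D (p : FreeGroup (Fin n) →* Q) (w : FreeGroup (Fin n)) :
    (Fin n → V) →ₗ[F] V := (exists_D ρ p w).choose

theorem A_apply (p : FreeGroup (Fin n) →* Q) (w : FreeGroup (Fin n)) (v : Fin n → V)
    (f : V) : A ρ p v w f = ρ (p w) f + D ρ p w v := (exists_D ρ p w).choose_spec v f

theorem act_D (p : FreeGroup (Fin n) →* Q) (r : FreeGroup (Fin n)) (k : ℕ)
    (h : p (r ^ k) = 1) (v : Fin n → V) :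
    ρ (p r) (D ρ p (r ^ k) v) = D ρ p (r ^ k) v := by
  have h1 : A ρ p v r (A ρ p v (r ^ k) 0) = A ρ p v (r ^ k) (A ρ p v r 0) := by
    rw [← Equiv.Perm.mul_apply, ← Equiv.Perm.mul_apply, ← map_mul, ← map_mul,
      (Commute.self_pow r k).eq]
  simp only [A_apply, map_zero, zero_add, h, map_one, Module.End.one_apply] at h1
  rw [add_comm (D ρ p r v)] at h1
  exact add_right_cancel h1

variable {m : ℕ}

/-- The conditions imposed by the relators. -/
noncomputable def Phi (p : FreeGroup (Fin n) →* Q) (r : Fin m → FreeGroup (Fin n))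
    (k : Fin m → ℕ) (hp : ∀ j, p (r j ^ k j) = 1) :
    (Fin n → V) →ₗ[F] (∀ j : Fin m, fixed ρ (p (r j))) :=
  LinearMap.pi fun j => (D ρ p (r j ^ k j)).codRestrict (fixed ρ (p (r j)))
    (act_D ρ p (r j) (k j) (hp j))

theorem D_eq_zero {p : FreeGroup (Fin n) →* Q} {r : Fin m → FreeGroup (Fin n)}
    {k : Fin m → ℕ} {hp : ∀ j, p (r j ^ k j) = 1} {v : Fin n → V}
    (hv : Phi ρ p r k hp v = 0) (j : Fin m) : D ρ p (r j ^ k j) v = 0 :=
  congrArg Subtype.val (congrFun hv j)

/-- The coboundary map. -/
noncomputable def del (p : FreeGroup (Fin n) →* Q) : V →ₗ[F] (Fin n → V) :=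
  LinearMap.pi fun i => LinearMap.id - ρ (p (FreeGroup.of i))

theorem finrank_del [Module.Finite F V] (p : FreeGroup (Fin n) →* Q) :
    Module.finrank F (LinearMap.range (del ρ p)) + Module.finrank F ρ.invariants ≤
      Module.finrank F V := by
  have h1 := LinearMap.finrank_range_add_finrank_ker (del ρ p)
  have h2 : ρ.invariants ≤ LinearMap.ker (del ρ p) := by
    intro v hv
    rw [LinearMap.mem_ker]
    ext i
    show v - ρ (p (FreeGroup.of i)) v = 0
    rw [hv, sub_self]
  have h3 := Submodule.finrank_mono h2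
  omega

end Affine

section Main

variable {F Q V : Type*} [Field F] [CharZero F] [Group Q] [AddCommGroup V] [Module F V]
  (ρ : Representation F Q V)
variable {n m : ℕ} {r : Fin m → FreeGroup (Fin n)} {k : Fin m → ℕ}

theorem mk_rel (j : Fin m) : PresentedGroup.mk (relators r k) (r j ^ k j) = 1 :=
  (QuotientGroup.eq_one_iff _).2 (Subgroup.subset_normalClosure ⟨j, rfl⟩)

theorem map_rel (π : PresentedGroup (relators r k) →* Q) (j : Fin m) :
    (π.comp (PresentedGroup.mk (relators r k))) (r j ^ k j) = 1 := by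
  show π (PresentedGroup.mk (relators r k) (r j ^ k j)) = 1
  rw [mk_rel, map_one]

theorem mem_range_del [Fintype Q] (hT : ∀ g : PresentedGroup (relators r k), IsOfFinOrder g)
    (π : PresentedGroup (relators r k) →* Q) (hπ : Function.Surjective π)
    (v : Fin n → V)
    (hv : Phi ρ (π.comp (PresentedGroup.mk (relators r k))) r k (map_rel π) v = 0) :
    v ∈ LinearMap.range (del ρ (π.comp (PresentedGroup.mk (relators r k)))) := by
  have hp1 := map_rel π
  set p : FreeGroup (Fin n) →* Q := π.comp (PresentedGroup.mk (relators r k)) with hp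
  have hA : ∀ w ∈ relators r k,
      FreeGroup.lift (fun i => aff ρ (p (FreeGroup.of i)) (v i)) w = 1 := by
    rintro _ ⟨j, rfl⟩
    show A ρ p v (r j ^ k j) = 1
    apply Equiv.ext
    intro f
    rw [A_apply, hp1, map_one, D_eq_zero ρ hv, add_zero, Equiv.Perm.one_apply,
      Module.End.one_apply]
  let B : PresentedGroup (relators r k) →* Equiv.Perm V := PresentedGroup.toGroup hA
  let d : PresentedGroup (relators r k) → V := fun g => B g 0
  have hd : ∀ g f, B g f = ρ (π g) f + d g := by
    intro g f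
    obtain ⟨w, rfl⟩ := PresentedGroup.mk_surjective _ g
    show A ρ p v w f = ρ (p w) f + A ρ p v w 0
    rw [A_apply, A_apply, map_zero, zero_add]
  have hker : ∀ g, π g = 1 → d g = 0 := by
    intro g hg
    obtain ⟨N, hN, hgN⟩ := isOfFinOrder_iff_pow_eq_one.1 (hT g)
    have h1 : ∀ i : ℕ, B (g ^ i) 0 = (i : F) • d g := by
      intro i
      induction i with
      | zero => rw [pow_zero, map_one, Equiv.Perm.one_apply, Nat.cast_zero, zero_smul]
      | succ i ih =>
        rw [pow_succ', map_mul, Equiv.Perm.mul_apply, ih, hd, hg, map_one,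
          Module.End.one_apply, Nat.cast_succ, add_smul, one_smul]
    have h2 := h1 N
    rw [hgN, map_one, Equiv.Perm.one_apply] at h2
    rcases smul_eq_zero.1 h2.symm with h3 | h3
    · exact absurd (by exact_mod_cast h3) hN.ne'
    · exact h3
  have heq : ∀ a b, π a = π b → d a = d b := by
    intro a b hab
    have h1 : d (b⁻¹ * a) = 0 := hker _ (by rw [map_mul, map_inv, hab, inv_mul_cancel])
    have h2 : a = b * (b⁻¹ * a) := by rw [mul_inv_cancel_left]
    have h3 : d a = B b (d (b⁻¹ * a)) := by
      show B a 0 = B b (B (b⁻¹ * a) 0)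
      rw [← Equiv.Perm.mul_apply, ← map_mul, ← h2]
    rw [h3, h1]
  let s : Q → PresentedGroup (relators r k) := Function.surjInv hπ
  have hs : ∀ q, π (s q) = q := Function.surjInv_eq hπ
  have hcard : (Fintype.card Q : F) ≠ 0 := Nat.cast_ne_zero.2 Fintype.card_ne_zero
  let m₀ : V := (Fintype.card Q : F)⁻¹ • ∑ q, d (s q)
  have hfix : ∀ g, ρ (π g) m₀ + d g = m₀ := by
    intro g
    have h1 : ∑ q, (ρ (π g) (d (s q)) + d g) = ∑ q, d (s q) := by
      rw [← Equiv.sum_comp (Equiv.mulLeft (π g)) (fun q => d (s q))]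
      refine Finset.sum_congr rfl fun q _ => ?_
      rw [← hd, Equiv.coe_mulLeft]
      have h2 : B g (d (s q)) = d (g * s q) := by
        show B g (B (s q) 0) = B (g * s q) 0
        rw [map_mul, Equiv.Perm.mul_apply]
      rw [h2]
      apply heq
      rw [map_mul, hs, hs]
    rw [Finset.sum_add_distrib, Finset.sum_const, Finset.card_univ, ← map_sum,
      ← Nat.cast_smul_eq_nsmul F] at h1
    have h3 : m₀ = (Fintype.card Q : F)⁻¹ • ∑ q, d (s q) := rfl
    have h4 : (Fintype.card Q : F)⁻¹ •
        (ρ (π g) (∑ q, d (s q)) + (Fintype.card Q : F) • d g) = m₀ := by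
      rw [h1]
    rw [smul_add, smul_smul, inv_mul_cancel₀ hcard, one_smul, ← map_smul, ← h3] at h4
    exact h4
  refine ⟨m₀, ?_⟩
  ext i
  have h5 := hfix (PresentedGroup.mk (relators r k) (FreeGroup.of i))
  have h6 : d (PresentedGroup.mk (relators r k) (FreeGroup.of i)) = v i := by
    show A ρ p v (FreeGroup.of i) 0 = v i
    rw [A_of, aff_apply, map_zero, zero_add]
  rw [h6] at h5
  show m₀ - ρ (π (PresentedGroup.mk (relators r k) (FreeGroup.of i))) m₀ = v i
  rw [sub_eq_iff_eq_add, add_comm]
  exact h5.symm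

/-- The main inequality. -/
theorem rep_bound [Finite Q] [Module.Finite F V]
    (hT : ∀ g : PresentedGroup (relators r k), IsOfFinOrder g)
    (π : PresentedGroup (relators r k) →* Q) (hπ : Function.Surjective π) :
    n * Module.finrank F V + Module.finrank F ρ.invariants ≤ Module.finrank F V +
      ∑ j, Module.finrank F (fixed ρ (π (PresentedGroup.mk (relators r k) (r j)))) := by
  have : Fintype Q := Fintype.ofFinite Q
  set p : FreeGroup (Fin n) →* Q := π.comp (PresentedGroup.mk (relators r k)) with hp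
  have h1 := LinearMap.finrank_range_add_finrank_ker (Phi ρ p r k (map_rel π))
  have h2 : LinearMap.ker (Phi ρ p r k (map_rel π)) ≤ LinearMap.range (del ρ p) := fun v hv =>
    mem_range_del ρ hT π hπ v hv
  have h3 := Submodule.finrank_mono h2
  have h4 := finrank_del ρ p
  have h5 : Module.finrank F (LinearMap.range (Phi ρ p r k (map_rel π))) ≤
      ∑ j, Module.finrank F (fixed ρ (p (r j))) := by
    refine (Submodule.finrank_le _).trans ?_
    rw [Module.finrank_pi_fintype]
  have h6 : Module.finrank F (Fin n → V) = n * Module.finrank F V := by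
    rw [Module.finrank_pi_fintype]
    simp
  rw [h6] at h1
  have h7 : ∑ j, Module.finrank F (fixed ρ (p (r j))) =
    ∑ j, Module.finrank F (fixed ρ (π (PresentedGroup.mk (relators r k) (r j)))) := rfl
  omega

end Main

section Regular

variable {Q : Type*} [Group Q]

/-- The action of `Q` on functions. -/
def reg (Q : Type*) [Group Q] : Representation ℚ Q (Q → ℚ) where
  toFun q :=
    { toFun := fun f x => f (x * q)
      map_add' := fun _ _ => rfl
      map_smul' := fun _ _ => rfl }
  map_one' := by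
    ext f x
    simp
  map_mul' q q' := by
    ext f x
    simp [mul_assoc]

theorem reg_apply (q : Q) (f : Q → ℚ) (x : Q) : reg Q q f x = f (x * q) := rfl

theorem eq_of_coset [Finite Q] {q : Q} {s : Q → ℚ} (h : reg Q q s = s) {x y : Q}
    (hxy : (x : Q ⧸ Subgroup.zpowers q) = y) : s x = s y := by
  rw [QuotientGroup.eq, ← mem_powers_iff_mem_zpowers] at hxy
  obtain ⟨i, hi⟩ := hxy
  have h1 : ∀ i : ℕ, s (x * q ^ i) = s x := by
    intro i
    induction i with
    | zero => rw [pow_zero, mul_one]
    | succ i ih =>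
      have h2 := congrFun h (x * q ^ i)
      rw [reg_apply, mul_assoc, ← pow_succ] at h2
      rw [h2, ih]
  have h3 : y = x * q ^ i := by
    have : q ^ i = x⁻¹ * y := hi
    rw [this, mul_inv_cancel_left]
  rw [h3, h1]

theorem finrank_fixed_reg [Fintype Q] (q : Q) :
    Module.finrank ℚ (fixed (reg Q) q) ≤ Fintype.card (Q ⧸ Subgroup.zpowers q) := by
  rw [← Module.finrank_fintype_fun_eq_card (R := ℚ)]
  refine LinearMap.finrank_le_finrank_of_injective
    (f := (LinearMap.funLeft ℚ ℚ Quotient.out).comp (fixed (reg Q) q).subtype) ?_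
  rw [injective_iff_map_eq_zero]
  intro s hs
  ext x
  have h2 : (s : Q → ℚ) (Quotient.out (x : Q ⧸ Subgroup.zpowers q)) = 0 :=
    congrFun hs (x : Q ⧸ Subgroup.zpowers q)
  show (s : Q → ℚ) x = 0
  rw [← h2]
  exact eq_of_coset s.2 (QuotientGroup.out_eq' _).symm

theorem one_le_invariants_reg [Finite Q] : 1 ≤ Module.finrank ℚ (reg Q).invariants := by
  have : Fintype Q := Fintype.ofFinite Q
  rw [Nat.one_le_iff_ne_zero, ← Nat.pos_iff_ne_zero, Module.finrank_pos_iff_exists_ne_zero]
  refine ⟨⟨fun _ => 1, fun q => rfl⟩, fun h => ?_⟩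
  have h3 := congrFun (congrArg Subtype.val h) (1 : Q)
  exact one_ne_zero h3

variable {n m : ℕ} {r : Fin m → FreeGroup (Fin n)} {k : Fin m → ℕ}

/-- The inequality for the regular representation. -/
theorem main_bound [Finite Q] (hT : ∀ g : PresentedGroup (relators r k), IsOfFinOrder g)
    (π : PresentedGroup (relators r k) →* Q) (hπ : Function.Surjective π) :
    (n : ℚ) - 1 + 1 / Nat.card Q ≤
      ∑ j, 1 / (orderOf (π (PresentedGroup.mk (relators r k) (r j))) : ℚ) := by
  have : Fintype Q := Fintype.ofFinite Q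
  have h0 := rep_bound (reg Q) hT π hπ
  rw [Module.finrank_fintype_fun_eq_card] at h0
  have h1 : n * Fintype.card Q + 1 ≤ Fintype.card Q + ∑ j, Fintype.card
      (Q ⧸ Subgroup.zpowers (π (PresentedGroup.mk (relators r k) (r j)))) := by
    have h2 := Finset.sum_le_sum fun (j : Fin m) (_ : j ∈ Finset.univ) =>
      finrank_fixed_reg (π (PresentedGroup.mk (relators r k) (r j)))
    have h3 := one_le_invariants_reg (Q := Q)
    omega
  have hc : (0 : ℚ) < Fintype.card Q := by exact_mod_cast Fintype.card_pos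
  have h2 : ∀ j, (Fintype.card
      (Q ⧸ Subgroup.zpowers (π (PresentedGroup.mk (relators r k) (r j)))) : ℚ) =
      Fintype.card Q * (1 / (orderOf (π (PresentedGroup.mk (relators r k) (r j))) : ℚ)) := by
    intro j
    set g := π (PresentedGroup.mk (relators r k) (r j))
    have h3 := Subgroup.card_eq_card_quotient_mul_card_subgroup (Subgroup.zpowers g)
    rw [Nat.card_zpowers, Nat.card_eq_fintype_card, Nat.card_eq_fintype_card] at h3
    have h4 : (orderOf g : ℚ) ≠ 0 := by
      have := orderOf_pos g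
      positivity
    rw [h3]
    push_cast
    field_simp
  have h5 : ((n * Fintype.card Q + 1 : ℕ) : ℚ) ≤ ((Fintype.card Q +
      ∑ j, Fintype.card (Q ⧸ Subgroup.zpowers
        (π (PresentedGroup.mk (relators r k) (r j)))) : ℕ) : ℚ) := by
    exact_mod_cast h1
  push_cast at h5
  rw [Finset.sum_congr rfl fun j _ => h2 j, ← Finset.mul_sum] at h5
  rw [Nat.card_eq_fintype_card]
  set S := ∑ j, 1 / (orderOf (π (PresentedGroup.mk (relators r k) (r j))) : ℚ)
  have h6 : ((n : ℚ) - 1 + 1 / Fintype.card Q) * Fintype.card Q ≤ S * Fintype.card Q := by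
    have : ((n : ℚ) - 1 + 1 / Fintype.card Q) * Fintype.card Q =
      n * Fintype.card Q - Fintype.card Q + 1 := by field_simp
    rw [this]
    linarith
  exact le_of_mul_le_mul_right h6 hc

end Regular

end Pres

end Vale.Agent.P192
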