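import Vale.Agent.P192.Pres

/-!
# P192: balanced presentations of periodic groups
-/

open scoped Classical

namespace Vale.Agent.P192

namespace Pres

section Balanced

variable {n m : ℕ}

/-- The homomorphism to the rationals with given values on the generators. -/
def lin (a : Fin n → ℚ) : FreeGroup (Fin n) →* Multiplicative ℚ :=
  FreeGroup.lift fun i => Multiplicative.ofAdd (a i)

theorem lin_of (a : Fin n → ℚ) (i : Fin n) :
    lin a (FreeGroup.of i) = Multiplicative.ofAdd (a i) := FreeGroup.lift_apply_of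

theorem exists_E (w : FreeGroup (Fin n)) :
    ∃ E : (Fin n → ℚ) →ₗ[ℚ] ℚ, ∀ a, (lin a w).toAdd = E a := by
  induction w using FreeGroup.induction_on with
  | C1 => exact ⟨0, fun a => by rw [map_one]; rfl⟩
  | of i => exact ⟨LinearMap.proj i, fun a => by rw [lin_of]; rfl⟩
  | inv_of i _ => exact ⟨-LinearMap.proj i, fun a => by rw [map_inv, lin_of]; rfl⟩
  | mul x y hx hy =>
    obtain ⟨E₁, h₁⟩ := hx
    obtain ⟨E₂, h₂⟩ := hy
    exact ⟨E₁ + E₂, fun a => by rw [map_mul, toAdd_mul, h₁, h₂]; rfl⟩

/-- The exponent pairing. -/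
noncomputable def E (w : FreeGroup (Fin n)) : (Fin n → ℚ) →ₗ[ℚ] ℚ := (exists_E w).choose

theorem E_apply (w : FreeGroup (Fin n)) (a : Fin n → ℚ) : (lin a w).toAdd = E w a :=
  (exists_E w).choose_spec a

/-- The exponent pairing with the roots. -/
noncomputable def Lam (r : Fin m → FreeGroup (Fin n)) : (Fin n → ℚ) →ₗ[ℚ] (Fin m → ℚ) :=
  LinearMap.pi fun j => E (r j)

theorem Lam_injective {r : Fin m → FreeGroup (Fin n)} {k : Fin m → ℕ}
    (hT : ∀ g : PresentedGroup (relators r k), IsOfFinOrder g) :
    Function.Injective (Lam r) := by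
  rw [injective_iff_map_eq_zero]
  intro a ha
  have h1 : ∀ w ∈ relators r k,
      FreeGroup.lift (fun i => Multiplicative.ofAdd (a i)) w = 1 := by
    rintro _ ⟨j, rfl⟩
    have h2 : lin a (r j) = 1 := by
      apply Multiplicative.toAdd.injective
      rw [E_apply]
      exact congrFun ha j
    show lin a (r j ^ k j) = 1
    rw [map_pow, h2, one_pow]
  let B : PresentedGroup (relators r k) →* Multiplicative ℚ := PresentedGroup.toGroup h1
  ext i
  obtain ⟨N, hN, h⟩ := isOfFinOrder_iff_pow_eq_one.1
    (hT (PresentedGroup.mk (relators r k) (FreeGroup.of i)))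
  have h3 : (B (PresentedGroup.mk (relators r k) (FreeGroup.of i))) ^ N = 1 := by
    rw [← map_pow, h, map_one]
  have h4 : B (PresentedGroup.mk (relators r k) (FreeGroup.of i)) =
      Multiplicative.ofAdd (a i) := lin_of a i
  rw [h4, ← ofAdd_nsmul] at h3
  have h5 : N • a i = 0 := Multiplicative.ofAdd.injective h3
  rw [nsmul_eq_mul] at h5
  rcases mul_eq_zero.1 h5 with h6 | h6
  · exact absurd (by exact_mod_cast h6) hN.ne'
  · exact h6

theorem le_card {r : Fin m → FreeGroup (Fin n)} {k : Fin m → ℕ}
    (hT : ∀ g : PresentedGroup (relators r k), IsOfFinOrder g) : n ≤ m := by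
  have := LinearMap.finrank_le_finrank_of_injective (Lam_injective hT)
  simpa using this

theorem orderOf_ab {r : Fin n → FreeGroup (Fin n)} {k : Fin n → ℕ} (hk : ∀ j, 1 ≤ k j)
    (hT : ∀ g : PresentedGroup (relators r k), IsOfFinOrder g) (j : Fin n) :
    orderOf (Abelianization.of (PresentedGroup.mk (relators r k) (r j))) = k j := by
  have : Fact ((0 : ℚ) < 1) := ⟨one_pos⟩
  have hsurj : Function.Surjective (Lam r) := LinearMap.injective_iff_surjective.1 (Lam_injective hT)
  have hkj : (k j : ℚ) ≠ 0 := by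
    have := hk j
    positivity
  obtain ⟨a, ha⟩ := hsurj (Pi.single j (1 / (k j : ℚ)))
  let χ : FreeGroup (Fin n) →* Multiplicative (AddCircle (1 : ℚ)) :=
    (AddMonoidHom.toMultiplicative
      (QuotientAddGroup.mk' (AddSubgroup.zmultiples (1 : ℚ)))).comp (lin a)
  have hχ : ∀ w, χ w = Multiplicative.ofAdd ((E w a : ℚ) : AddCircle (1 : ℚ)) := by
    intro w
    rw [← E_apply]
    rfl
  have hE : ∀ i, E (r i) a = (Pi.single j (1 / (k j : ℚ)) : Fin n → ℚ) i := fun i =>
    congrFun ha i
  have h1 : ∀ w ∈ relators r k, FreeGroup.lift (fun i => χ (FreeGroup.of i)) w = 1 := by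
    rintro _ ⟨i, rfl⟩
    have h0 : FreeGroup.lift (fun i => χ (FreeGroup.of i)) = χ := by
      ext i
      rw [FreeGroup.lift_apply_of]
    show FreeGroup.lift (fun i => χ (FreeGroup.of i)) (r i ^ k i) = 1
    rw [h0, map_pow, hχ, hE]
    by_cases hij : i = j
    · subst hij
      rw [Pi.single_eq_same, ← ofAdd_nsmul, ← AddCircle.coe_nsmul, nsmul_eq_mul,
        mul_one_div_cancel hkj, AddCircle.coe_period]
      rfl
    · rw [Pi.single_eq_of_ne hij, AddCircle.coe_zero, ofAdd_zero, one_pow]
  let B : PresentedGroup (relators r k) →* Multiplicative (AddCircle (1 : ℚ)) :=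
    PresentedGroup.toGroup h1
  have hB : B (PresentedGroup.mk (relators r k) (r j)) =
      Multiplicative.ofAdd (((1 : ℚ) / k j : ℚ) : AddCircle (1 : ℚ)) := by
    have h0 : FreeGroup.lift (fun i => χ (FreeGroup.of i)) = χ := by
      ext i
      rw [FreeGroup.lift_apply_of]
    show FreeGroup.lift (fun i => χ (FreeGroup.of i)) (r j) = _
    rw [h0, hχ, hE, Pi.single_eq_same]
  have hord : orderOf (B (PresentedGroup.mk (relators r k) (r j))) = k j := by
    rw [hB, orderOf_ofAdd_eq_addOrderOf]
    exact AddCircle.addOrderOf_period_div (hk j)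
  apply Nat.dvd_antisymm
  · rw [orderOf_dvd_iff_pow_eq_one, ← map_pow, ← map_pow]
    have h2 : PresentedGroup.mk (relators r k) (r j ^ k j) = 1 :=
      (QuotientGroup.eq_one_iff _).2 (Subgroup.subset_normalClosure ⟨j, rfl⟩)
    rw [h2, map_one]
  · have h3 : Abelianization.lift B (Abelianization.of (PresentedGroup.mk (relators r k) (r j))) =
        B (PresentedGroup.mk (relators r k) (r j)) := Abelianization.lift_apply_of _ _
    have h4 := orderOf_map_dvd (Abelianization.lift B)
      (Abelianization.of (PresentedGroup.mk (relators r k) (r j)))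
    rwa [h3, hord] at h4

theorem balanced {r : Fin n → FreeGroup (Fin n)} {k : Fin n → ℕ} (hk : ∀ j, 1 ≤ k j)
    (hT : ∀ g : PresentedGroup (relators r k), IsOfFinOrder g) :
    ∑ j, (1 - 1 / (k j : ℚ)) < 1 := by
  have hs : Function.Surjective
      (Abelianization.of : PresentedGroup (relators r k) →* Abelianization _) :=
    QuotientGroup.mk_surjective
  have : Group.FG (Abelianization (PresentedGroup (relators r k))) :=
    Group.fg_of_surjective (f := Abelianization.of.comp (PresentedGroup.mk (relators r k)))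
      (hs.comp (PresentedGroup.mk_surjective _))
  have : Finite (Abelianization (PresentedGroup (relators r k))) := by
    apply CommGroup.finite_of_fg_isMulTorsion
    intro x
    obtain ⟨g, rfl⟩ := hs x
    exact MonoidHom.isOfFinOrder Abelianization.of (hT g)
  have h1 := main_bound hT Abelianization.of hs
  rw [Finset.sum_congr rfl fun j _ => by rw [orderOf_ab hk hT j]] at h1
  have h2 : (0 : ℚ) < 1 / (Nat.card (Abelianization (PresentedGroup (relators r k))) : ℚ) := by
    have := Nat.card_pos (α := Abelianization (PresentedGroup (relators r k)))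
    positivity
  rw [Finset.sum_sub_distrib, Finset.sum_const, Finset.card_univ, Fintype.card_fin, nsmul_eq_mul,
    mul_one]
  linarith

/-- If every root has its full order in some finite quotient, then `∑ 1 / kⱼ > n - 1`. -/
theorem full_orders {r : Fin m → FreeGroup (Fin n)} {k : Fin m → ℕ} (hk : ∀ j, 1 ≤ k j)
    (hT : ∀ g : PresentedGroup (relators r k), IsOfFinOrder g)
    (h : ∀ j, ∃ (Q : Type) (_ : Group Q) (_ : Finite Q) (π : PresentedGroup (relators r k) →* Q),
      orderOf (π (PresentedGroup.mk (relators r k) (r j))) = k j) :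
    (n : ℚ) - 1 < ∑ j, 1 / (k j : ℚ) := by
  choose Q hg hf π hπ using h
  let P : PresentedGroup (relators r k) →* (∀ j, Q j) := MonoidHom.pi π
  have h1 := main_bound hT P.rangeRestrict P.rangeRestrict_surjective
  have h2 : (0 : ℚ) < 1 / (Nat.card P.range : ℚ) := by
    have := Nat.card_pos (α := P.range)
    positivity
  refine lt_of_lt_of_le (b := (n : ℚ) - 1 + 1 / (Nat.card P.range : ℚ)) (by linarith)
    (h1.trans (Finset.sum_le_sum fun j _ => ?_))
  have h3 : k j ∣ orderOf (P.rangeRestrict (PresentedGroup.mk (relators r k) (r j))) := by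
    have h4 := orderOf_map_dvd ((Pi.evalMonoidHom Q j).comp P.range.subtype)
      (P.rangeRestrict (PresentedGroup.mk (relators r k) (r j)))
    have h5 : ((Pi.evalMonoidHom Q j).comp P.range.subtype)
        (P.rangeRestrict (PresentedGroup.mk (relators r k) (r j))) =
        π j (PresentedGroup.mk (relators r k) (r j)) := rfl
    rwa [h5, hπ] at h4
  have h6 : 0 < orderOf (P.rangeRestrict (PresentedGroup.mk (relators r k) (r j))) :=
    orderOf_pos _
  have h7 := Nat.le_of_dvd h6 h3
  have h8 : (0 : ℚ) < k j := by exact_mod_cast hk j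
  exact one_div_le_one_div_of_le h8 (by exact_mod_cast h7)

/-- Relators which are `p`-th powers of words outside `F ^ p [F, F]`. -/
theorem prime_powers {p : ℕ} (hp : p.Prime) {r : Fin m → FreeGroup (Fin n)}
    (hr : ∀ j, ∃ χ : FreeGroup (Fin n) →* Multiplicative (ZMod p), χ (r j) ≠ 1)
    (hT : ∀ g : PresentedGroup (relators r fun _ => p), IsOfFinOrder g) :
    p * n < m + p := by
  have hpow : ∀ y : Multiplicative (ZMod p), y ^ p = 1 := by
    intro y
    apply Multiplicative.toAdd.injective
    rw [toAdd_pow, toAdd_one, nsmul_eq_mul, ZMod.natCast_self, zero_mul]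
  have : NeZero p := ⟨hp.ne_zero⟩
  have : Fact p.Prime := ⟨hp⟩
  have h1 := full_orders (r := r) (k := fun _ => p) (fun _ => hp.one_le) hT (fun j => by
    obtain ⟨χ, hχ⟩ := hr j
    have h2 : ∀ w ∈ relators r (fun _ => p),
        FreeGroup.lift (fun i => χ (FreeGroup.of i)) w = 1 := by
      rintro _ ⟨i, rfl⟩
      show FreeGroup.lift (fun i => χ (FreeGroup.of i)) (r i ^ p) = 1
      rw [map_pow, hpow]
    refine ⟨Multiplicative (ZMod p), inferInstance, inferInstance, PresentedGroup.toGroup h2, ?_⟩
    have h3 : PresentedGroup.toGroup h2 (PresentedGroup.mk _ (r j)) = χ (r j) := by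
      have h0 : FreeGroup.lift (fun i => χ (FreeGroup.of i)) = χ := by
        ext i
        rw [FreeGroup.lift_apply_of]
      show FreeGroup.lift (fun i => χ (FreeGroup.of i)) (r j) = χ (r j)
      rw [h0]
    rw [h3]
    exact orderOf_eq_prime (hpow _) hχ)
  rw [Finset.sum_const, Finset.card_univ, Fintype.card_fin, nsmul_eq_mul] at h1
  have hp0 : (0 : ℚ) < p := by exact_mod_cast hp.pos
  have h9 : ((n : ℚ) - 1) * p < m := by
    have := mul_lt_mul_of_pos_right h1 hp0
    rwa [mul_assoc, one_div, inv_mul_cancel₀ hp0.ne', mul_one] at this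
  have h10 : ((p * n : ℕ) : ℚ) < ((m + p : ℕ) : ℚ) := by
    push_cast
    linarith
  exact_mod_cast h10

end Balanced

end Pres

end Vale.Agent.P192
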